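import Vale.Agent.P198.I.Stm

/-! Part I: bad nodes have many oscillating descendants. -/

open Set Metric Topology Filter

namespace Vale.Agent.P198

variable {G Z : Type*} [Group G] [MetricSpace Z] [MulAction G Z] [CompactSpace Z]
  {D : Dyn G Z} {S : Str D} {E : Geo Z}

namespace IBad

omit [CompactSpace Z] in
theorem L_ge (c : Cst S E) : 2 * D.C + 1 ≤ c.L := by
  have h1 := c.L2
  have h2 := mul_le_mul_of_nonneg_left E.one_le_Λ D.C_pos.le
  linarith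

omit [CompactSpace Z] in
theorem child (c : Cst S E) {k l0 j : ℕ} {ε α η s : ℝ} (hp : c.Par l0 ε α η s) (hj : l0 ≤ j)
    {ξ h : G} (hξ : ξ ∈ c.T j α (α + 8 * η) s) (l : Fin 3) {p y : Z}
    (hv : S.v p = Cst.ht α η l) (hd : dist p (D.pt ξ) < (c.L + 1) * D.q ^ j)
    (hy : JoinedIn (S.R ∩ ball p (D.q ^ (j + k))) p y) (hη : η ≤ |S.v y - Cst.ht α η l|)
    (hl : D.len h = j + k) (hh : dist p (D.pt h) < 2 * D.C * D.q ^ (j + k)) :
    dist (D.pt h) (D.pt ξ) ≤ (c.L + 1 + 2 * D.C) * D.q ^ j ∧ ∃ r ∈ Finset.range 8,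
      h ∈ c.T (j + k) (α + r * η) (α + r * η + η) (s + ε) := by
  have hq := D.qpow_pos j
  have hqk := D.qpow_pos (j + k)
  have hC := D.C_pos
  have hL := L_ge c
  have h1 : D.q ^ (j + k) ≤ D.q ^ j :=
    pow_le_pow_of_le_one D.q_pos.le D.q_lt.le (Nat.le_add_right _ _)
  have h2 : D.q ^ j ≤ D.q ^ l0 := pow_le_pow_of_le_one D.q_pos.le D.q_lt.le hj
  have h3 : dist (D.pt h) (D.pt ξ) ≤ (c.L + 1 + 2 * D.C) * D.q ^ j := by
    have a := dist_triangle_left (D.pt h) (D.pt ξ) p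
    have b := mul_le_mul_of_nonneg_left h1 (by positivity : 0 ≤ 2 * D.C)
    linarith
  have h4 : dist (D.pt h) (D.pt ξ) ≤ ε := by
    have a := hp.q2
    have b := mul_le_mul_of_nonneg_left h2 (by linarith : 0 ≤ c.L + 2 + 2 * D.C)
    linarith
  obtain ⟨-, i1, i2, -⟩ := c.mem_T.1 hξ
  have i3 := infDist_le_infDist_add_dist (x := D.pt h) (y := D.pt ξ) (s := S.Lf)
  have i4 := infDist_le_infDist_add_dist (x := D.pt ξ) (y := D.pt h) (s := S.Lf)
  rw [dist_comm] at i4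
  have hy' : JoinedIn (S.R ∩ ball (D.pt h) (c.L * D.q ^ (j + k))) p y := by
    refine hy.mono (inter_subset_inter_right _ fun x hx => ?_)
    have a := dist_triangle x p (D.pt h)
    have b := mul_le_mul_of_nonneg_right hL hqk.le
    rw [mem_ball] at hx ⊢
    linarith
  have hl3 : (l : ℕ) < 3 := l.isLt
  refine ⟨h3, ?_⟩
  unfold Cst.ht at hv hη
  rcases le_abs.1 hη with a | a
  · refine ⟨1 + 3 * l, Finset.mem_range.2 (by omega), c.mem_T.2 ⟨hl, by linarith, by linarith,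
      p, y, hy', ?_, ?_⟩⟩ <;> push_cast <;> linarith
  · refine ⟨3 * l, Finset.mem_range.2 (by omega), c.mem_T.2 ⟨hl, by linarith, by linarith,
      y, p, hy'.symm, ?_, ?_⟩⟩ <;> push_cast <;> linarith

omit [CompactSpace Z] in
theorem many (c : Cst S E) (hS : SumP G G) {k l0 j : ℕ} {ε α η s : ℝ} (hp : c.Par l0 ε α η s)
    (hj : l0 ≤ j) {ξ : G} (hξ : ξ ∈ c.T j α (α + 8 * η) s) (hb : ¬ ∃ p, c.Good k j α η ξ p)
    (B : Finset G) (hB : ∀ h, dist (D.pt h) (D.pt ξ) ≤ (c.L + 1 + 2 * D.C) * D.q ^ j →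
      (∃ r ∈ Finset.range 8, h ∈ c.T (j + k) (α + r * η) (α + r * η + η) (s + ε)) → h ∈ B) :
    1 ≤ 8 * D.C * (D.q ^ k * B.card) := by
  have hq := D.qpow_pos j
  have hqk := D.qpow_pos (j + k)
  have hC := D.C_pos
  have hL := L_ge c
  have h2 : D.q ^ j ≤ D.q ^ l0 := pow_le_pow_of_le_one D.q_pos.le D.q_lt.le hj
  obtain ⟨l, hl⟩ : ∃ l : Fin 3, ∀ p ∈ S.K (Cst.ht α η l),
      dist p (D.pt ξ) < (c.L + 1) * D.q ^ j →
      ∃ y, JoinedIn (S.R ∩ ball p (D.q ^ (j + k))) p y ∧ η ≤ |S.v y - Cst.ht α η l| := by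
    by_contra h
    push Not at h
    choose p h1 h2 h3 using h
    exact hb ⟨p, fun l => ⟨h1 l, h2 l, h3 l⟩⟩
  have hη := hp.η_pos
  have hl0 : (0 : ℝ) ≤ (l : ℕ) := Nat.cast_nonneg _
  have hl2 : ((l : ℕ) : ℝ) ≤ 2 := by exact_mod_cast Nat.lt_succ_iff.1 l.isLt
  have t1 : α < Cst.ht α η l := by unfold Cst.ht; nlinarith
  have t2 : Cst.ht α η l < α + 8 * η := by unfold Cst.ht; nlinarith
  have t0 : 0 < Cst.ht α η l := by linarith [hp.α_ge]
  have t3 : Cst.ht α η l < 1 := by linarith [hp.β_le]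
  obtain ⟨-, i1, -, x, y, hxy, vx, vy⟩ := c.mem_T.1 hξ
  obtain ⟨p0, hp0, -, hp0'⟩ := S.K_meet _ t0 t3 _ x y inter_subset_left hxy (by linarith)
    (by linarith)
  obtain ⟨p1, hp1, hp1'⟩ := S.K_left _ t0 t3
  have d1 : (c.L + 1) * D.q ^ j ≤ dist p1 (D.pt ξ) := by
    have a := infDist_le_dist_of_mem (x := D.pt ξ) hp1'
    have b := mul_le_mul_of_nonneg_left h2 (by linarith : 0 ≤ c.L + 2 + 2 * D.C)
    have e := mul_pos hC hq
    rw [dist_comm] at a
    linarith [hp.q2, hp.ε_le, hp.s_le, c.δ5_le, c.δ5_pos]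
  have iv := (S.K_conn _ t0 t3).intermediate_value hp0 hp1
    (f := fun z => dist z (D.pt ξ)) (by fun_prop)
  have cov := hS.cover B (fun h => dist (D.pt h) (D.pt ξ)) (fun _ => 2 * D.C * D.q ^ (j + k))
    (c.L * D.q ^ j) ((c.L + 1 / 2) * D.q ^ j) (fun _ _ => by positivity) (fun t ht ht' => by
      rw [mem_ball] at hp0'
      obtain ⟨p, hpK, e⟩ := iv (show t ∈ Icc _ _ from ⟨by linarith, by linarith⟩)
      simp only at e
      have hd : dist p (D.pt ξ) < (c.L + 1) * D.q ^ j := by linarith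
      obtain ⟨y', hy1, hy2⟩ := hl p hpK hd
      obtain ⟨h, hh1, hh2⟩ := D.exists_hit (j + k) p
      obtain ⟨a, b⟩ := child c hp hj hξ l (S.K_val _ t0 t3 p hpK) hd hy1 hy2 hh1 hh2
      refine ⟨h, hB h a b, ?_⟩
      rw [← e]
      exact (abs_dist_sub_le _ _ _).trans hh2.le)
  rw [Finset.sum_const, nsmul_eq_mul, pow_add] at cov
  refine le_of_mul_le_mul_left ?_ hq
  linarith

end IBad

theorem Cst.badP (c : Cst S E) (hS : SumP G G) : c.BadP := by
  classical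
  obtain ⟨N, hN⟩ := D.loc' (c.L + 1 + 2 * D.C)
  have hC := D.C_pos
  refine ⟨1 / (8 * D.C * (N + 1)), by positivity, fun k l0 j ε α η s Y hp hj hY hb => ?_⟩
  set U := (Finset.range 8).biUnion fun r : ℕ =>
    c.T (j + k) (α + r * η) (α + r * η + η) (s + ε) with hU
  let rel : G → G → Prop := fun ξ h => dist (D.pt h) (D.pt ξ) ≤ (c.L + 1 + 2 * D.C) * D.q ^ j
  have a1 : ∀ ξ ∈ Y, (1 : ℝ) ≤ 8 * D.C * (D.q ^ k * (U.bipartiteAbove rel ξ).card) :=
    fun ξ hξ => IBad.many c hS hp hj (hY hξ) (hb ξ hξ) _ fun h h1 h2 =>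
      (Finset.mem_bipartiteAbove rel).2 ⟨Finset.mem_biUnion.2 h2, h1⟩
  have a2 : ∀ h ∈ U, (Y.bipartiteBelow rel h).card ≤ N := fun h _ =>
    hN (D.pt h) j _ fun ξ hξ => by
      obtain ⟨h1, h2⟩ := (Finset.mem_bipartiteBelow rel).1 hξ
      exact ⟨(c.mem_T.1 (hY h1)).1, by rw [dist_comm]; exact h2⟩
  have a3 := Finset.sum_card_bipartiteAbove_eq_sum_card_bipartiteBelow (s := Y) (t := U) rel
  have a4 : ∑ ξ ∈ Y, (U.bipartiteAbove rel ξ).card ≤ U.card * N := by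
    rw [a3]
    exact Finset.sum_le_card_nsmul _ _ _ a2
  have a5 : U.card ≤ ∑ r ∈ Finset.range 8,
      (c.T (j + k) (α + r * η) (α + r * η + η) (s + ε)).card := Finset.card_biUnion_le
  have a6 := Finset.sum_le_sum a1
  rw [Finset.sum_const, nsmul_eq_mul, mul_one, ← Finset.mul_sum, ← Finset.mul_sum] at a6
  have a4' : ∑ ξ ∈ Y, ((U.bipartiteAbove rel ξ).card : ℝ) ≤ U.card * N := by exact_mod_cast a4
  have a5' : (U.card : ℝ) ≤ ∑ r ∈ Finset.range 8,
      ((c.T (j + k) (α + r * η) (α + r * η + η) (s + ε)).card : ℝ) := by exact_mod_cast a5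
  have hk := D.qpow_pos k
  have b1 : (U.card : ℝ) * N ≤ (N + 1) * ∑ r ∈ Finset.range 8,
      ((c.T (j + k) (α + r * η) (α + r * η + η) (s + ε)).card : ℝ) := by
    rw [mul_comm]
    exact mul_le_mul (by linarith) a5' (Nat.cast_nonneg _) (by positivity)
  have b2 := mul_le_mul_of_nonneg_left (mul_le_mul_of_nonneg_left (a4'.trans b1) hk.le)
    (by positivity : 0 ≤ 8 * D.C)
  rw [one_div, inv_mul_le_iff₀ (by positivity)]
  linarith

end Vale.Agent.P198
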