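import Vale.Agent.P198.I.Stm

open Set Metric Topology Filter

namespace Vale.Agent.P198

variable {G Z : Type*} [Group G] [MetricSpace Z] [MulAction G Z] [CompactSpace Z] {D : Dyn G Z}

namespace IBott

theorem cpt (a b c d : ℝ) : IsCompact (rect a b c d) := by
  have : rect a b c d = Icc a b ×ℂ Icc c d := by
    ext w; simp [rect, Complex.mem_reProdIm, and_assoc]
  rw [this]
  exact isCompact_Icc.reProdIm isCompact_Icc

omit [CompactSpace Z] in
theorem sep {ψ : ℂ → Z} (h : IsOpenEmbedding ψ) : ∃ δ : ℝ, 0 < δ ∧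
    ∀ a ∈ rect 0 0 0 1, ∀ b ∈ rect 1 1 0 1, δ ≤ dist (ψ a) (ψ b) := by
  obtain ⟨⟨a, b⟩, ⟨ha, hb⟩, hm⟩ := ((cpt 0 0 0 1).prod (cpt 1 1 0 1)).exists_isMinOn
    (f := fun p : ℂ × ℂ => dist (ψ p.1) (ψ p.2))
    ⟨(0, 1), by simp [rect]⟩
    ((h.continuous.comp continuous_fst).dist (h.continuous.comp continuous_snd)).continuousOn
  refine ⟨dist (ψ a) (ψ b), dist_pos.2 fun e => ?_, fun x hx y hy => hm (mk_mem_prod hx hy)⟩
  have := h.injective e
  subst this
  have h1 := ha.2.1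
  have h2 := hb.1
  simp only at h1 h2
  linarith

end IBott

theorem Lim.bottP (L : Lim D) (hF : L.FinP) (hS : SumP G G) : L.BottP := by
  classical
  intro R
  obtain ⟨δ, δ0, hδ⟩ := IBott.sep L.emb
  obtain ⟨j0, hj0⟩ := eventually_atTop.1 (D.ev_small (4 * R) δ δ0)
  obtain ⟨N, hN⟩ := D.loc' (4 * R)
  have A1 : 1 ≤ D.A := by linarith [D.two_le_A]
  have p0 : 0 < D.A ^ (j0 + 1) := by positivity
  have p1 : 0 ≤ (N : ℝ) * max L.C2 0 := mul_nonneg (by positivity) (le_max_right _ _)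
  refine ⟨N * max L.C2 0 + D.A ^ (j0 + 1), by linarith, fun j α β T h0 h1 h2 hT => ?_⟩
  have sq1 : (β - α) ^ 2 ≤ 1 := by nlinarith
  rcases T.eq_empty_or_nonempty with rfl | ⟨g0, hg0⟩
  · simp; linarith
  by_cases hj : j < j0
  · have a : (T.card : ℝ) ≤ (D.lev j).card := by
      exact_mod_cast Finset.card_le_card fun g hg => D.mem_lev.2 (hT g hg).1
    have b := D.card_lev j
    have c : D.A ^ (j + 1) ≤ D.A ^ (j0 + 1) := pow_le_pow_right₀ A1 (by omega)
    have d : (T.card : ℝ) * (β - α) ^ 2 ≤ T.card := mul_le_of_le_one_right (by positivity) sq1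
    linarith
  have small := hj0 j (by omega)
  set s := R * D.q ^ j with hs
  have s0 : 0 < s := by
    obtain ⟨-, x, y, hxy, -⟩ := hT g0 hg0
    exact pos_of_mem_ball hxy.source_mem.2
  have key : ∀ g : G, ∃ p : ℂ × ℂ, g ∈ T →
      JoinedIn (rect 0 1 0 1 ∩ L.ψ ⁻¹' ball (D.pt g) s) p.1 p.2 ∧ L.v p.1 ≤ α ∧ β ≤ L.v p.2 := by
    intro g
    by_cases hg : g ∈ T
    · obtain ⟨-, x, y, h⟩ := hT g hg
      exact ⟨(x, y), fun _ => h⟩
    · exact ⟨0, fun h => absurd h hg⟩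
  choose p hp using key
  have hE := hF (T.image fun g => (p g).1) (T.image fun g => (p g).2) α β h0 h2
    (fun x hx => by obtain ⟨g, hg, rfl⟩ := Finset.mem_image.1 hx; exact (hp g hg).2.1)
    (fun x hx => by obtain ⟨g, hg, rfl⟩ := Finset.mem_image.1 hx; exact (hp g hg).2.2)
  set E := {A | (∀ x ∈ T.image fun g => (p g).1, x ∉ Up 0 1 A) ∧
    ∀ y ∈ T.image fun g => (p g).2, y ∈ Up 0 1 A} with hEd
  obtain ⟨S, hST, hc, hi⟩ := hS.indep T (fun g g' => dist (D.pt g') (D.pt g) ≤ 4 * R * D.q ^ j) N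
    (fun g => by rw [dist_self, mul_assoc]; linarith) (fun g g' h => by rwa [dist_comm])
    (fun g _ => hN (D.pt g) j _ fun g' hg' =>
      ⟨(hT g' (Finset.mem_filter.1 hg').1).1, (Finset.mem_filter.1 hg').2⟩)
  have far : ∀ g ∈ S, ∀ g' ∈ S, g ≠ g' → 4 * s < dist (D.pt g) (D.pt g') := by
    intro g hg g' hg' hne
    have := hi g' hg' g hg hne.symm
    rw [mul_assoc] at this
    exact not_le.1 this
  have ser := L.series (S.image fun g => (D.pt g, s)) E
    (fun x hx => by obtain ⟨g, -, rfl⟩ := Finset.mem_image.1 hx; exact s0)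
    (fun x hx y hy hne => by
      obtain ⟨g, hg, rfl⟩ := Finset.mem_image.1 hx
      obtain ⟨g', hg', rfl⟩ := Finset.mem_image.1 hy
      have := far g hg g' hg' (by rintro rfl; exact hne rfl)
      refine disjoint_left.2 fun z h1 h2 => ?_
      have a := h1.2
      have b := h2.2
      have c := dist_triangle_left (D.pt g) (D.pt g') z
      simp only at a b
      linarith)
    (fun A hA hF x hx => by
      obtain ⟨g, hg, rfl⟩ := Finset.mem_image.1 hx
      have hg' := hST hg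
      obtain ⟨w, hw, hwA⟩ : ∃ w ∈ rect 0 1 0 1 ∩ L.ψ ⁻¹' ball (D.pt g) s, w ∈ A := by
        by_contra hc
        push Not at hc
        exact hA.1 _ (Finset.mem_image_of_mem _ hg') (up_join ((hp g hg').1.mono fun w hw =>
          ⟨⟨hw.1.1, hw.1.2.1⟩, hc w hw⟩) (hA.2 _ (Finset.mem_image_of_mem _ hg')))
      obtain ⟨a, ha, ea⟩ := hF.1.left
      obtain ⟨b, hb, eb⟩ := hF.1.right
      have d := hδ a ⟨ea.ge, ea.le, (hF.2 ha).2.2⟩ b ⟨eb.ge, eb.le, (hF.2 hb).2.2⟩
      have t := dist_triangle_right (L.ψ a) (L.ψ b) (D.pt g)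
      have hw' : dist (L.ψ w) (D.pt g) ≤ s := (mem_ball.1 hw.2).le
      rw [mul_assoc, ← hs] at small
      have J : ∀ c ∈ A, JoinedIn (L.ψ '' A) (L.ψ w) (L.ψ c) := fun c hc =>
        (hF.1.conn.joinedIn w hwA c hc).map L.emb.continuous
      by_cases h : 2 * s ≤ dist (L.ψ a) (D.pt g)
      · exact ⟨_, _, J a ha, hw', h⟩
      · exact ⟨_, _, J b hb, hw', by simp only; linarith⟩)
  rw [Finset.card_image_of_injOn (fun g hg g' hg' e => by
    by_contra hne
    have := far g hg g' hg' hne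
    have e1 : D.pt g = D.pt g' := congrArg Prod.fst e
    rw [e1, dist_self] at this
    linarith)] at ser
  have a : (β - α) ^ 2 ≤ L.m E ^ 2 := pow_le_pow_left₀ (by linarith) hE 2
  have b : (T.card : ℝ) ≤ N * S.card := by exact_mod_cast hc
  have c : (S.card : ℝ) * (β - α) ^ 2 ≤ max L.C2 0 :=
    ((mul_le_mul_of_nonneg_left a (by positivity)).trans ser).trans (le_max_left _ _)
  have d : (T.card : ℝ) * (β - α) ^ 2 ≤ N * S.card * (β - α) ^ 2 :=
    mul_le_mul_of_nonneg_right b (by positivity)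
  have e : (N : ℝ) * (S.card * (β - α) ^ 2) ≤ N * max L.C2 0 :=
    mul_le_mul_of_nonneg_left c (by positivity)
  linarith [mul_assoc (N : ℝ) S.card ((β - α) ^ 2)]

end Vale.Agent.P198
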