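import Vale.Agent.P198.I.Stm
import Vale.Agent.P198.L.PathP

/-! Part I: finitely many boxes catch all big sets. -/

open Set Metric Topology Filter

namespace Vale.Agent.P198

variable {G Z : Type*} [Group G] [MetricSpace Z] [MulAction G Z] [CompactSpace Z]

namespace IBox

/-- The real affine map taking the right part of the big square to the unit square. -/
noncomputable def aff : ℂ ≃ₜ ℂ where
  toFun v := ((v.re - 1 : ℝ) : ℂ) + (((v.im + 2) / 4 : ℝ) : ℂ) * Complex.I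
  invFun w := ((w.re + 1 : ℝ) : ℂ) + ((4 * w.im - 2 : ℝ) : ℂ) * Complex.I
  left_inv v := by
    apply Complex.ext
    · simp only [Complex.add_re, Complex.add_im, Complex.mul_re, Complex.mul_im,
        Complex.ofReal_re, Complex.ofReal_im, Complex.I_re, Complex.I_im]
      ring
    · simp only [Complex.add_re, Complex.add_im, Complex.mul_re, Complex.mul_im,
        Complex.ofReal_re, Complex.ofReal_im, Complex.I_re, Complex.I_im]
      ring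
  right_inv v := by
    apply Complex.ext
    · simp only [Complex.add_re, Complex.add_im, Complex.mul_re, Complex.mul_im,
        Complex.ofReal_re, Complex.ofReal_im, Complex.I_re, Complex.I_im]
      ring
    · simp only [Complex.add_re, Complex.add_im, Complex.mul_re, Complex.mul_im,
        Complex.ofReal_re, Complex.ofReal_im, Complex.I_re, Complex.I_im]
      ring
  continuous_toFun := by fun_prop
  continuous_invFun := by fun_prop

theorem aff_re (v : ℂ) : (aff v).re = v.re - 1 := by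
  change (((v.re - 1 : ℝ) : ℂ) + (((v.im + 2) / 4 : ℝ) : ℂ) * Complex.I).re = _
  simp only [Complex.add_re, Complex.mul_re, Complex.ofReal_re, Complex.ofReal_im, Complex.I_re,
    Complex.I_im]
  ring

theorem aff_im (v : ℂ) : (aff v).im = (v.im + 2) / 4 := by
  change (((v.re - 1 : ℝ) : ℂ) + (((v.im + 2) / 4 : ℝ) : ℂ) * Complex.I).im = _
  simp only [Complex.add_im, Complex.mul_im, Complex.ofReal_re, Complex.ofReal_im, Complex.I_re,
    Complex.I_im]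
  ring

/-- Rotation followed by the affine map. -/
noncomputable def gg (k : ℕ) : ℂ ≃ₜ ℂ :=
  (Homeomorph.mulLeft₀ (Complex.I ^ k) (pow_ne_zero k Complex.I_ne_zero)).trans aff

theorem gg_apply (k : ℕ) (v : ℂ) : gg k v = aff (Complex.I ^ k * v) := rfl

theorem rot {c : ℝ} {v : ℂ} (h : |v.re| ≤ c ∧ |v.im| ≤ c) (k : ℕ) :
    |(Complex.I ^ k * v).re| ≤ c ∧ |(Complex.I ^ k * v).im| ≤ c := by
  induction k with
  | zero => simpa using h
  | succ k ih =>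
    rw [pow_succ', mul_assoc, Complex.I_mul_re, Complex.I_mul_im, abs_neg]
    exact ih.symm

theorem side {v : ℂ} (h : ¬ (|v.re| < 2 ∧ |v.im| < 2)) :
    ∃ k ∈ Finset.range 4, 2 ≤ (Complex.I ^ k * v).re := by
  rw [not_and_or, not_lt, not_lt, le_abs, le_abs] at h
  rcases h with (h | h) | (h | h)
  · exact ⟨0, by simp, by simpa using h⟩
  · exact ⟨2, by simp, by simpa using h⟩
  · exact ⟨3, by simp, by simpa [pow_succ] using h⟩
  · exact ⟨1, by simp, by simpa using h⟩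

theorem sq_open (c : ℝ) : IsOpen {w : ℂ | |w.re| < c ∧ |w.im| < c} :=
  IsOpen.and (isOpen_lt Complex.continuous_re.abs continuous_const)
    (isOpen_lt Complex.continuous_im.abs continuous_const)

theorem sq_norm {w : ℂ} (h : |w.re| ≤ 2 ∧ |w.im| ≤ 2) : ‖w‖ ≤ 4 :=
  (Complex.norm_le_abs_re_add_abs_im w).trans (by linarith [h.1, h.2])

theorem sq_cpt : IsCompact {w : ℂ | |w.re| ≤ 2 ∧ |w.im| ≤ 2} :=
  (isCompact_closedBall (0 : ℂ) 4).of_isClosed_subset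
    (IsClosed.and (isClosed_le Complex.continuous_re.abs continuous_const)
      (isClosed_le Complex.continuous_im.abs continuous_const))
    fun _ h => mem_closedBall_zero_iff.2 (sq_norm h)

omit [CompactSpace Z] in
theorem chart (D : Dyn G Z) {ε : ℝ} (hε : 0 < ε) (z : Z) :
    ∃ φ : ℂ → Z, IsOpenEmbedding φ ∧ φ 0 = z ∧ ∀ w, ‖w‖ ≤ 4 → dist (φ w) z < ε := by
  obtain ⟨ψ0, -, h0⟩ := D.chart z
  have h1 : ψ0 0 ∈ ({z}ᶜ : Set Z) := h0 ▸ mem_range_self 0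
  obtain ⟨ψ, hψ, h2⟩ := D.chart (ψ0 0)
  have h3 : z ∈ range ψ := by
    rw [h2]
    exact fun h => h1 (mem_singleton_iff.1 h).symm
  obtain ⟨w0, rfl⟩ := h3
  obtain ⟨r, hr, h4⟩ := Metric.continuous_iff.1 hψ.continuous w0 ε hε
  have h5 : ((r / 5 : ℝ) : ℂ) ≠ 0 := Complex.ofReal_ne_zero.2 (by positivity)
  refine ⟨ψ ∘ ((Homeomorph.mulLeft₀ _ h5).trans (Homeomorph.addLeft w0)),
    hψ.comp (Homeomorph.isOpenEmbedding _), ?_, fun w hw => h4 _ ?_⟩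
  · change ψ (w0 + ((r / 5 : ℝ) : ℂ) * 0) = ψ w0
    rw [mul_zero, add_zero]
  · change dist (w0 + ((r / 5 : ℝ) : ℂ) * w) w0 < r
    rw [dist_eq_norm, add_sub_cancel_left, norm_mul, Complex.norm_real, Real.norm_eq_abs,
      abs_of_pos (by positivity)]
    nlinarith

omit [CompactSpace Z] in
theorem cross (hP : PathP ℂ) {φ : ℂ → Z} (hφ : IsOpenEmbedding φ) {A : Set Z} {a : ℂ} {y : Z}
    (ha : |a.re| < 1 ∧ |a.im| < 1) (h : JoinedIn A (φ a) y)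
    (hy : ∀ w : ℂ, ‖w‖ ≤ 4 → φ w ≠ y) :
    ∃ k ∈ Finset.range 4, ∃ A' ∈ Fam, (φ ∘ (gg k).symm) '' A' ⊆ A := by
  have ha2 : |a.re| < 2 ∧ |a.im| < 2 := ⟨by linarith [ha.1], by linarith [ha.2]⟩
  obtain ⟨y', h1, h2, h3⟩ := (pathP Z).first A (φ '' {w : ℂ | |w.re| < 2 ∧ |w.im| < 2})ᶜ _ _ h
    (hφ.isOpenMap _ (sq_open 2)).isClosed_compl (by
      rintro ⟨w, hw, e⟩
      exact hy w (sq_norm ⟨hw.1.le, hw.2.le⟩) e)
  have hK := (sq_cpt.image hφ.continuous).isClosed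
  have h4 : A \ (φ '' {w : ℂ | |w.re| < 2 ∧ |w.im| < 2})ᶜ
      ⊆ φ '' ({w : ℂ | |w.re| ≤ 2 ∧ |w.im| ≤ 2} ∩ φ ⁻¹' A) := by
    rintro x ⟨hx, hx'⟩
    obtain ⟨w, hw, rfl⟩ := not_not.1 hx'
    exact ⟨w, ⟨⟨hw.1.le, hw.2.le⟩, hx⟩, rfl⟩
  have h5 : y' ∈ φ '' {w : ℂ | |w.re| ≤ 2 ∧ |w.im| ≤ 2} := by
    obtain ⟨Q, q1, -, q2, q3, q4⟩ := (pathP Z).cpt _ _ _ h3
    obtain ⟨x, -, x1, x2⟩ := isPreconnected_closed_iff.1 q2.isConnected.isPreconnected _ {y'} hK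
      isClosed_singleton
      (q1.trans (union_subset_union_left _ (h4.trans (image_mono inter_subset_left))))
      ⟨φ a, q3, a, ⟨ha2.1.le, ha2.2.le⟩, rfl⟩ ⟨y', q4, rfl⟩
    exact (mem_singleton_iff.1 x2) ▸ x1
  obtain ⟨b, hb, rfl⟩ := h5
  have m1 : a ∈ {w : ℂ | |w.re| ≤ 2 ∧ |w.im| ≤ 2} ∩ φ ⁻¹' A :=
    ⟨⟨ha2.1.le, ha2.2.le⟩, h.source_mem⟩
  have m2 : b ∈ {w : ℂ | |w.re| ≤ 2 ∧ |w.im| ≤ 2} ∩ φ ⁻¹' A := ⟨hb, h2⟩
  have h6 : JoinedIn ({w : ℂ | |w.re| ≤ 2 ∧ |w.im| ≤ 2} ∩ φ ⁻¹' A) a b :=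
    (hφ.isInducing.joinedIn_image m1 m2).1
      (h3.mono (union_subset h4 (singleton_subset_iff.2 ⟨b, ⟨hb, h2⟩, rfl⟩)))
  obtain ⟨k, hk, h7⟩ := side fun hb' => h1 ⟨b, hb', rfl⟩
  obtain ⟨x', y', h8, e1, e2⟩ := hP.band _ Complex.re _ _ 0 1 (h6.map (gg k).continuous)
    Complex.continuous_re.continuousOn
    (by
      rw [gg_apply, aff_re]
      linarith [(abs_le.1 (rot ⟨ha.1.le, ha.2.le⟩ k).1).2])
    zero_le_one (by rw [gg_apply, aff_re]; linarith)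
  obtain ⟨Q, q1, q2, q3, q4, q5⟩ := hP.cpt _ _ _ h8
  refine ⟨k, hk, Q, ⟨⟨q2, q3, fun w hw => (q1 hw).2, ⟨x', q4, e1⟩, ⟨y', q5, e2⟩⟩,
    fun w hw => ?_⟩, ?_⟩
  · obtain ⟨⟨v, hv, rfl⟩, hw'⟩ := q1 hw
    have h9 := abs_le.1 (rot hv.1 k).2
    refine ⟨hw'.1, hw'.2, ?_, ?_⟩ <;> rw [gg_apply, aff_im] <;> linarith [h9.1, h9.2]
  · rintro _ ⟨w, hw, rfl⟩
    obtain ⟨⟨v, hv, rfl⟩, -⟩ := q1 hw
    rw [Function.comp_apply, Homeomorph.symm_apply_apply]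
    exact hv.2

end IBox

theorem boxP (D : Dyn G Z) (hP : PathP ℂ) : BoxP Z := by
  classical
  intro δ hδ
  choose φ h1 h2 h3 using IBox.chart D (half_pos hδ)
  obtain ⟨t, -, ht⟩ := isCompact_univ.elim_nhds_subcover
    (fun z => φ z '' {w : ℂ | |w.re| < 1 ∧ |w.im| < 1}) fun z _ =>
      ((h1 z).isOpenMap _ (IBox.sq_open 1)).mem_nhds ⟨0, by simp, h2 z⟩
  refine ⟨(t ×ˢ Finset.range 4).image fun p => φ p.1 ∘ (IBox.gg p.2).symm, fun ψ hψ => ?_,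
    fun A hA => ?_⟩
  · obtain ⟨p, -, rfl⟩ := Finset.mem_image.1 hψ
    exact (h1 p.1).comp (Homeomorph.isOpenEmbedding _)
  · obtain ⟨x, y, hxy, hd⟩ := hA
    obtain ⟨z, hz, a, ha, rfl⟩ := mem_iUnion₂.1 (ht (mem_univ x))
    obtain ⟨k, hk, h⟩ := IBox.cross hP (h1 z) ha hxy fun w hw e => by
      have a1 := h3 z w hw
      have a2 := h3 z a (IBox.sq_norm ⟨by linarith [ha.1], by linarith [ha.2]⟩)
      rw [e] at a1
      linarith [dist_triangle_right (φ z a) y z]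
    exact ⟨_, Finset.mem_image.2 ⟨(z, k), Finset.mem_product.2 ⟨hz, hk⟩, rfl⟩, h⟩

end Vale.Agent.P198
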