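import Vale.Agent.P198.I.Stm

/-! Part I: the abstract chain argument. -/

namespace Vale.Agent.P198

theorem chainP : ChainP := by
  intro P l0 j0 θ U W Cb Φ0 x0 n ch V h0 h1 hU hΦ hV hj hv hn hb hc hs
  have hb' : ∀ i ≤ P, ∀ x j, V i x → n i x j < 128 ^ P := fun i hi x j hx => by
    have e : (128 : ℝ) ^ P = 2 ^ P * 64 ^ P := by rw [← mul_pow]; norm_num
    have h64 : (64 : ℝ) ^ i ≤ 64 ^ P := pow_le_pow_right₀ (by norm_num) hi
    calc n i x j ≤ U * 64 ^ i := hb i x j hx
      _ < 2 ^ P * 64 ^ i := mul_lt_mul_of_pos_right hU (by positivity)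
      _ ≤ _ := by rw [e]; gcongr
  by_contra hne
  have key : ∀ i ≤ P, ∃ x j, V i x ∧ l0 ≤ j ∧ 128 ^ i * Φ0 ≤ θ ^ j * n i x j := by
    intro i
    induction i with
    | zero => exact fun _ => ⟨x0, j0, hV, hj, by simpa using hv⟩
    | succ i ih =>
      intro hi
      obtain ⟨x, j, hx, hl, hv⟩ := ih (by omega)
      have a1 : Φ0 ≤ θ ^ j * n i x j :=
        (le_mul_of_one_le_left (by linarith) (one_le_pow₀ (by norm_num))).trans hv
      by_contra hno
      refine hne ⟨j, θ ^ j * n i x j, a1,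
        mul_le_mul_of_nonneg_left (hb' i (by omega) x j hx).le (pow_pos h0 j).le, ?_⟩
      refine (hs i (by omega) x j (128 * (θ ^ j * n i x j)) hx hl (by linarith)
        fun r hr j' hj' => ?_).resolve_left (by linarith)
      by_contra hlt
      refine hno ⟨ch i x r, j', hc i x hx r hr, hj', ?_⟩
      rw [pow_succ]
      linarith
  obtain ⟨x, j, hx, -, hv⟩ := key P le_rfl
  have a1 := hb' P le_rfl x j hx
  have a2 : θ ^ j * n P x j ≤ n P x j :=
    mul_le_of_le_one_left (hn _ _ _) (pow_le_one₀ h0.le h1.le)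
  have a3 : (128 : ℝ) ^ P ≤ 128 ^ P * Φ0 := le_mul_of_one_le_right (by positivity) hΦ
  linarith

end Vale.Agent.P198
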