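import Vale.Agent.P198.I.Stm

/-! Part I: points joined approximately by thick families have the same height. -/

open Set Metric Topology Filter

namespace Vale.Agent.P198

variable {G Z : Type*} [Group G] [MetricSpace Z] [MulAction G Z] [CompactSpace Z] {D : Dyn G Z}

namespace IConst

theorem strip_conv (a b : ℝ) : Convex ℝ (strip a b) :=
  (convex_halfSpace_re_ge a).inter (convex_halfSpace_re_le b)

theorem seg {A : Set ℂ} {x x' : ℂ} {r : ℝ} (hx : x ∈ strip 0 1) (hx' : x' ∈ strip 0 1)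
    (hd : dist x' x < r) (hA : ¬ (A ∩ ball x r).Nonempty) : JoinedIn (strip 0 1 \ A) x x' := by
  have hr : 0 < r := dist_nonneg.trans_lt hd
  have hc : Convex ℝ (strip 0 1 ∩ ball x r) := (strip_conv 0 1).inter (convex_ball x r)
  have h1 : x ∈ strip 0 1 ∩ ball x r := ⟨hx, mem_ball_self hr⟩
  have h2 : x' ∈ strip 0 1 ∩ ball x r := ⟨hx', hd⟩
  exact ((hc.isPathConnected ⟨x, h1⟩).joinedIn x h1 x' h2).mono fun z hz =>
    ⟨hz.1, fun h => hA ⟨z, h, hz.2⟩⟩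

theorem one (L : Lim D) {x y : ℂ} {κ r : ℝ} {E : Set (Set ℂ)} (hE : L.m E = 0)
    (hx : L.m {A | (A ∩ ball x r).Nonempty} ≤ κ) (hy : L.m {A | (A ∩ ball y r).Nonempty} ≤ κ)
    (h : ∀ A, ¬ (A ∩ ball x r).Nonempty → ¬ (A ∩ ball y r).Nonempty → A ∉ E →
      x ∈ Up 0 1 A → y ∈ Up 0 1 A) : L.v x ≤ L.v y + 2 * κ := by
  have h1 : {A | x ∈ Up 0 1 A} ⊆ ({A | y ∈ Up 0 1 A} ∪ E) ∪
      ({A | (A ∩ ball x r).Nonempty} ∪ {A | (A ∩ ball y r).Nonempty}) := by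
    intro A hA
    by_cases a : (A ∩ ball x r).Nonempty
    · exact Or.inr (Or.inl a)
    by_cases b : (A ∩ ball y r).Nonempty
    · exact Or.inr (Or.inr b)
    by_cases c : A ∈ E
    · exact Or.inl (Or.inr c)
    exact Or.inl (Or.inl (h A a b c hA))
  have h2 := L.m_mono h1
  have h3 := L.m_union ({A | y ∈ Up 0 1 A} ∪ E)
    ({A | (A ∩ ball x r).Nonempty} ∪ {A | (A ∩ ball y r).Nonempty})
  have h4 := L.m_union {A | y ∈ Up 0 1 A} E
  have h5 := L.m_union {A | (A ∩ ball x r).Nonempty} {A | (A ∩ ball y r).Nonempty}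
  unfold Lim.v
  linarith

end IConst

open IConst in
theorem Lim.constP (L : Lim D) (hV : L.VP) : L.ConstP := by
  intro x hx y hy h
  have key : ∀ κ : ℝ, 0 < κ → L.v x ≤ L.v y + 2 * κ ∧ L.v y ≤ L.v x + 2 * κ := by
    intro κ hκ
    obtain ⟨r, hr, hs⟩ := hV.small κ hκ
    obtain ⟨Γ, hΓ, hB⟩ := h r hr
    have hE : L.m {A | ¬ (A ∩ ball x r).Nonempty ∧ ¬ (A ∩ ball y r).Nonempty ∧
        ¬ JoinedIn (strip 0 1 \ A) x y} = 0 := by
      refine L.cross _ Γ hΓ fun A hA _ B hB' => ?_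
      obtain ⟨B', s1, s2, x', y', hj, d1, d2⟩ := hB B hB'
      by_contra hne
      have hd : B' ⊆ strip 0 1 \ A := fun z hz =>
        ⟨s1 hz, fun hzA => hne ⟨L.ψ z, ⟨z, hzA, rfl⟩, s2 ⟨z, hz, rfl⟩⟩⟩
      exact hA.2.2 (((seg ⟨hx.1, hx.2.1⟩ (s1 hj.source_mem) d1 hA.1).trans (hj.mono hd)).trans
        (seg ⟨hy.1, hy.2.1⟩ (s1 hj.target_mem) d2 hA.2.1).symm)
    refine ⟨one L hE (hs x hx) (hs y hy) fun A a b c hA => ?_,
      one L hE (hs y hy) (hs x hx) fun A a b c hA => ?_⟩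
    · exact up_join (not_not.1 fun e => c ⟨a, b, e⟩).symm hA
    · exact up_join (not_not.1 fun e => c ⟨b, a, e⟩) hA
  refine le_antisymm (le_of_forall_pos_le_add fun ε hε => ?_)
    (le_of_forall_pos_le_add fun ε hε => ?_)
  · linarith [(key (ε / 2) (half_pos hε)).1]
  · linarith [(key (ε / 2) (half_pos hε)).2]

end Vale.Agent.P198
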