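import Vale.Agent.P198.I.Stm

/-! Part I: the constants of part I-B. -/

open Set Metric Topology Filter

namespace Vale.Agent.P198

variable {G Z : Type*} [Group G] [MetricSpace Z] [MulAction G Z] [CompactSpace Z] {D : Dyn G Z}

omit [CompactSpace Z] in
theorem cstP (S : Str D) (E : Geo Z) : CstP S E := by
  have hL : S.Lf.Nonempty := S.Lf_conn.nonempty
  have hR : S.Rt.Nonempty := (S.K_right (1 / 2) (by norm_num) (by norm_num)).mono inter_subset_right
  obtain ⟨x0, hx0, hmin⟩ := S.Rt_cpt.exists_isMinOn hR (continuous_infDist_pt S.Lf).continuousOn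
  have hδ : 0 < infDist x0 S.Lf := (S.Lf_cpt.isClosed.notMem_iff_infDist_pos hL).1
    fun h => S.disj.notMem_of_mem_left h hx0
  set δ := infDist x0 S.Lf with hδd
  have hQ : IsCompact ((S.R ∩ S.v ⁻¹' Icc (1 / 4) (3 / 4)) ∩
      (fun x => infDist x S.Lf) ⁻¹' Icc (δ / 12) (11 * δ / 12)) :=
    (S.R_cpt.of_isClosed_subset (S.v_cont.preimage_isClosed_of_isClosed S.R_cpt.isClosed
      isClosed_Icc) inter_subset_left).inter_right
      (isClosed_Icc.preimage (continuous_infDist_pt S.Lf))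
  obtain ⟨r, hr, hsub⟩ := hQ.exists_thickening_subset_open S.Ro_open (by
    rintro x ⟨⟨h1, h2, h3⟩, h4, h5⟩
    by_contra h
    simp only at h4 h5
    rcases S.bd x ⟨h1, h⟩ with h6 | h6 | h6 | h6
    · rw [infDist_zero_of_mem h6] at h4
      linarith
    · have : δ ≤ infDist x S.Lf := hmin h6
      linarith
    · linarith
    · linarith)
  have h5 : 0 < min (r / 3) (δ / 12) := lt_min (by linarith) (by linarith)
  refine ⟨⟨δ, min (r / 3) (δ / 12), max (D.C / min (r / 3) (δ / 12) + 1) (2 * D.C * E.Λ + 1), hδ, h5,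
    by linarith [min_le_right (r / 3) (δ / 12)], fun x hx => hmin hx,
    fun x h1 h2 h3 h4 h6 y hy => hsub ?_, ?_, le_max_right _ _⟩⟩
  · refine mem_thickening_iff.2 ⟨x, ⟨⟨h1, h2, h3⟩, h4, h6⟩, ?_⟩
    have := mem_ball.1 hy
    linarith [min_le_left (r / 3) (δ / 12)]
  · refine lt_of_lt_of_le ?_ (mul_le_mul_of_nonneg_right (le_max_left _ _) h5.le)
    rw [add_mul, div_mul_cancel₀ _ h5.ne']
    linarith

omit [CompactSpace Z] in
theorem Cst.cenP {S : Str D} {E : Geo Z} (c : Cst S E) (hP : PathP Z) : c.CenP := by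
  intro j α β s g h1 h2 h3 h4 h5 hg
  obtain ⟨-, h6, h7, x, y, hj, hx, hy⟩ := c.mem_T.1 hg
  obtain ⟨x', y', hj', hx', -⟩ := hP.band _ S.v x y α β hj (S.v_cont.mono inter_subset_left) hx h4 hy
  obtain ⟨⟨h8, h9⟩, -⟩ := hj'.source_mem
  have h10 : dist x' (D.pt g) < c.δ5 := (mem_ball.1 h9).trans_le h1
  have h11 := infDist_le_infDist_add_dist (x := x') (y := D.pt g) (s := S.Lf)
  have h12 := infDist_le_infDist_add_dist (x := D.pt g) (y := x') (s := S.Lf)
  rw [dist_comm] at h12
  have h13 := c.δ5_le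
  refine fun z hz => c.cen x' h8 (by linarith) (by linarith) (by linarith) (by linarith) ?_
  have := mem_ball.1 hz
  have h14 := dist_triangle_right z x' (D.pt g)
  exact mem_ball.2 (by linarith)

end Vale.Agent.P198
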