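import Vale.Agent.P198.I.Stm

/-! Part I: multiplicative energy and a pigeonhole lemma. -/

open Set Metric Topology Filter

namespace Vale.Agent.P198

variable {G Z : Type*} [Group G] [MetricSpace Z] [MulAction G Z]

namespace IEn

open Classical in
theorem mid' (D : Dyn G Z) : ∃ N : ℕ, ∀ (x y : G) (n : ℕ) (S : Finset G),
    (S.filter fun g => D.len g < n ∧ D.len (g⁻¹ * x) = D.len x ∧ D.len (g * y) = D.len y).card ≤
      n * N := by
  obtain ⟨N, hN⟩ := D.mid
  refine ⟨N, fun x y n S => ?_⟩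
  have h := Finset.card_le_mul_card_image_of_maps_to (f := D.len)
    (s := S.filter fun g => D.len g < n ∧ D.len (g⁻¹ * x) = D.len x ∧ D.len (g * y) = D.len y)
    (t := Finset.range n) (fun g hg => Finset.mem_range.2 (Finset.mem_filter.1 hg).2.1) N
    fun l _ => by
      refine le_trans ?_ (hN x y l)
      rw [← Set.ncard_coe_finset]
      refine Set.ncard_le_ncard (fun g hg => ?_) ((D.finL l).subset fun g hg => hg.1)
      obtain ⟨h1, h2⟩ := Finset.mem_filter.1 (Finset.mem_coe.1 hg)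
      exact ⟨h2, (Finset.mem_filter.1 h1).2.2⟩
  rwa [Finset.card_range, mul_comm] at h

end IEn

theorem enP (D : Dyn G Z) : EnP D := by
  classical
  obtain ⟨N, hN⟩ := IEn.mid' D
  refine ⟨N, fun j Y S hY hS => ?_⟩
  have h1 : Y.card * Y.card =
      ∑ g ∈ S, ((Y ×ˢ Y).filter fun p : G × G => p.1 * p.2⁻¹ = g).card := by
    rw [← Finset.card_product]
    exact Finset.card_eq_sum_card_fiberwise (f := fun p : G × G => p.1 * p.2⁻¹)
      fun p hp => hS _ (Finset.mem_product.1 hp).1 _ (Finset.mem_product.1 hp).2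
  have h2 : ∀ g ∈ S, ((Y ×ˢ Y).filter fun p : G × G => p.1 * p.2⁻¹ = g).card ^ 2 ≤
      ((Y ×ˢ Y).filter fun p : G × G => D.len g < 2 * j + 1 ∧ D.len (g⁻¹ * p.1) = D.len p.1 ∧
        D.len (g * p.2) = D.len p.2).card := by
    intro g _
    rw [sq, ← Finset.card_product]
    refine Finset.card_le_card_of_injOn (fun z => (z.1.1, z.2.2)) (fun z hz => ?_)
      fun z hz z' hz' e => ?_
    · obtain ⟨a, b⟩ := Finset.mem_product.1 (Finset.mem_coe.1 hz)
      obtain ⟨a1, a2⟩ := Finset.mem_filter.1 a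
      obtain ⟨b1, b2⟩ := Finset.mem_filter.1 b
      obtain ⟨a3, a4⟩ := Finset.mem_product.1 a1
      obtain ⟨b3, b4⟩ := Finset.mem_product.1 b1
      refine Finset.mem_coe.2 (Finset.mem_filter.2 ⟨Finset.mem_product.2 ⟨a3, b4⟩, ?_, ?_, ?_⟩)
      · have := D.len_mul z.1.1 z.1.2⁻¹
        rw [a2, D.len_inv, hY _ a3, hY _ a4] at this
        omega
      · have : g⁻¹ * z.1.1 = z.1.2 := by rw [← a2]; group
        simp only [this, hY _ a3, hY _ a4]
      · have : g * z.2.2 = z.2.1 := by rw [← b2]; group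
        simp only [this, hY _ b3, hY _ b4]
    · obtain ⟨a, b⟩ := Finset.mem_product.1 (Finset.mem_coe.1 hz)
      obtain ⟨a', b'⟩ := Finset.mem_product.1 (Finset.mem_coe.1 hz')
      have a2 := (Finset.mem_filter.1 a).2
      have b2 := (Finset.mem_filter.1 b).2
      have a2' := (Finset.mem_filter.1 a').2
      have b2' := (Finset.mem_filter.1 b').2
      obtain ⟨e1, e2⟩ := Prod.mk.inj e
      refine Prod.ext (Prod.ext e1 ?_) (Prod.ext ?_ e2)
      · rw [← a2', e1] at a2
        exact inv_injective (mul_left_cancel a2)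
      · rw [← b2', e2] at b2
        exact mul_right_cancel b2
  have h3 : ∑ g ∈ S, ((Y ×ˢ Y).filter fun p : G × G => D.len g < 2 * j + 1 ∧
      D.len (g⁻¹ * p.1) = D.len p.1 ∧ D.len (g * p.2) = D.len p.2).card ≤
      Y.card * Y.card * ((2 * j + 1) * N) := by
    refine (Finset.sum_card_bipartiteAbove_eq_sum_card_bipartiteBelow (s := S) (t := Y ×ˢ Y)
      fun g p => D.len g < 2 * j + 1 ∧ D.len (g⁻¹ * p.1) = D.len p.1 ∧
        D.len (g * p.2) = D.len p.2).trans_le ?_
    rw [← Finset.card_product, ← smul_eq_mul]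
    refine Finset.sum_le_card_nsmul _ _ _ fun p _ => ?_
    have := hN p.1 p.2 (2 * j + 1) S
    rw [Finset.bipartiteBelow]
    exact le_of_eq_of_le (congrArg _ (Finset.filter_congr_decidable _ _ _)) this
  have h4 := sq_sum_le_card_mul_sum_sq (s := S)
    (f := fun g => ((Y ×ˢ Y).filter fun p : G × G => p.1 * p.2⁻¹ = g).card)
  rw [← h1] at h4
  have h5 := h4.trans (Nat.mul_le_mul_left _ ((Finset.sum_le_sum h2).trans h3))
  have h6 : Y.card ^ 2 ≤ N * (2 * j + 1) * S.card := by
    rcases Nat.eq_zero_or_pos Y.card with h | h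
    · simp [h]
    · refine Nat.le_of_mul_le_mul_left ?_ (Nat.mul_pos h h)
      refine le_of_eq_of_le (by ring) (h5.trans_eq (by simp only [Nat.cast_id]; ring))
  exact_mod_cast h6

theorem netP (G Z : Type*) [MetricSpace Z] [CompactSpace Z] : NetP G Z := by
  classical
  intro ε hε
  obtain ⟨t, -, ht, hc⟩ := finite_cover_balls_of_compact (isCompact_univ (X := Z)) (half_pos hε)
  have hf : ∀ x : Z, ∃ y ∈ ht.toFinset, dist x y < ε / 2 := fun x => by
    obtain ⟨y, hy, h⟩ := mem_iUnion₂.1 (hc (mem_univ x))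
    exact ⟨y, ht.mem_toFinset.2 hy, h⟩
  choose f hf1 hf2 using hf
  refine ⟨(Fintype.piFinset fun _ : Fin 3 => ht.toFinset).card, fun Y p => ?_⟩
  rcases Y.eq_empty_or_nonempty with rfl | hY
  · exact ⟨∅, subset_rfl, by simp, by simp⟩
  obtain ⟨ξ0, -, h0⟩ := Y.exists_max_image
    (fun ξ => (Y.filter fun ξ' => (fun l => f (p ξ' l)) = fun l => f (p ξ l)).card) hY
  refine ⟨Y.filter fun ξ' => (fun l => f (p ξ' l)) = fun l => f (p ξ0 l), Finset.filter_subset _ _,
    ?_, fun ξ h ξ' h' l => ?_⟩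
  · rw [mul_comm]
    refine Finset.card_le_mul_card_image_of_maps_to (f := fun ξ l => f (p ξ l))
      (fun ξ _ => Fintype.mem_piFinset.2 fun l => hf1 _) _ fun c _ => ?_
    rcases (Y.filter fun ξ' => (fun l => f (p ξ' l)) = c).eq_empty_or_nonempty with e | ⟨ξ, e⟩
    · simp [e]
    · obtain ⟨e1, rfl⟩ := Finset.mem_filter.1 e
      exact h0 ξ e1
  · have e1 := congrFun (Finset.mem_filter.1 h).2 l
    have e2 := congrFun (Finset.mem_filter.1 h').2 l
    have a1 := hf2 (p ξ l)
    have a2 := hf2 (p ξ' l)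
    rw [e1] at a1
    rw [e2] at a2
    linarith [dist_triangle_right (p ξ l) (p ξ' l) (f (p ξ0 l))]

end Vale.Agent.P198
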