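import Vale.Agent.P198.I.Stm

/-! Part I: finite intersections. -/

open Set

namespace Vale.Agent.P198

variable {G Z : Type*} [Group G] [MetricSpace Z] [MulAction G Z] {D : Dyn G Z}

namespace IFin

/-- The curves below `w`. -/
def S (w : ℂ) : Set (Set ℂ) := {A | w ∈ Up 0 1 A}

theorem cmp (L : Lim D) (hU : UpP) (w w' : ℂ) :
    L.m (S w \ S w') = 0 ∨ L.m (S w' \ S w) = 0 := by
  rcases (L.m_nonneg (S w' \ S w)).eq_or_lt with h | h
  · exact Or.inr h.symm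
  left
  rw [← L.m_inter] at h
  refine L.cross _ _ (L.tf_pos _ inter_subset_right h) ?_
  rintro A hA hF _ ⟨A', ⟨hA', hF'⟩, rfl⟩
  by_contra hne
  have hd : Disjoint A A' := by
    rw [Set.disjoint_left]
    intro x hx hx'
    exact hne ⟨L.ψ x, mem_image_of_mem _ hx, mem_image_of_mem _ hx'⟩
  rcases hU.nest 0 1 A A' hF.1 hF'.1 hd with h1 | h1
  · exact hA'.2 (h1 hA.1)
  · exact hA.2 (h1 hA'.1)

theorem split (L : Lim D) (E E' : Set (Set ℂ)) : L.m E = L.m (E ∩ E') + L.m (E \ E') := by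
  rw [← L.m_add _ _ (disjoint_sdiff_right.mono_left inter_subset_right), inter_union_diff]

theorem null (L : Lim D) (hU : UpP) {w w' : ℂ} (h : L.v w ≤ L.v w') : L.m (S w \ S w') = 0 := by
  rcases cmp L hU w w' with h1 | h1
  · exact h1
  have h2 := split L (S w) (S w')
  have h3 := split L (S w') (S w)
  rw [inter_comm] at h3
  have h4 : L.m (S w) ≤ L.m (S w') := h
  exact le_antisymm (by linarith) (L.m_nonneg _)

theorem cover (L : Lim D) (F : ℂ → Set (Set ℂ)) (E : Set (Set ℂ)) (X : Finset ℂ)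
    (h : ∀ x ∈ X, L.m (F x \ E) = 0) : L.m (E ∪ ⋃ x ∈ X, F x) ≤ L.m E := by
  classical
  induction X using Finset.induction_on with
  | empty => simp
  | insert a X _ ih =>
    have h1 := ih fun x hx => h x (Finset.mem_insert_of_mem hx)
    have h2 := h a (Finset.mem_insert_self a X)
    have h3 : E ∪ ⋃ x ∈ insert a X, F x ⊆ (E ∪ ⋃ x ∈ X, F x) ∪ (F a \ E) := by
      rw [Finset.set_biUnion_insert]
      rintro A (hA | hA | hA)
      · exact Or.inl (Or.inl hA)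
      · by_cases hE : A ∈ E
        · exact Or.inl (Or.inl hE)
        · exact Or.inr ⟨hA, hE⟩
      · exact Or.inl (Or.inr hA)
    linarith [L.m_mono h3, L.m_union (E ∪ ⋃ x ∈ X, F x) (F a \ E)]

theorem low (L : Lim D) (hU : UpP) (X : Finset ℂ) {α : ℝ} (h0 : 0 ≤ α)
    (h : ∀ x ∈ X, L.v x ≤ α) : L.m (⋃ x ∈ X, S x) ≤ α := by
  rcases X.eq_empty_or_nonempty with rfl | hne
  · simpa [L.m_empty] using h0
  obtain ⟨x0, h1, h2⟩ := X.exists_max_image L.v hne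
  have h3 := cover L S (S x0) X fun x hx => null L hU (h2 x hx)
  exact ((L.m_mono subset_union_right).trans h3).trans (h x0 h1)

theorem high (L : Lim D) (hU : UpP) (Y : Finset ℂ) {β : ℝ} (h0 : β ≤ 1)
    (h : ∀ y ∈ Y, β ≤ L.v y) : L.m (⋃ y ∈ Y, (S y)ᶜ) ≤ 1 - β := by
  rcases Y.eq_empty_or_nonempty with rfl | hne
  · simpa [L.m_empty] using h0
  obtain ⟨y0, h1, h2⟩ := Y.exists_min_image L.v hne
  have h3 := cover L (fun y => (S y)ᶜ) (S y0)ᶜ Y fun y hy => by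
    rw [compl_sdiff_compl]
    exact null L hU (h2 y hy)
  have h4 := L.m_add (S y0) (S y0)ᶜ disjoint_compl_right
  rw [union_compl_self, L.m_univ] at h4
  have h5 : β ≤ L.m (S y0) := h y0 h1
  linarith [L.m_mono (subset_union_right : (⋃ y ∈ Y, (S y)ᶜ) ⊆ (S y0)ᶜ ∪ ⋃ y ∈ Y, (S y)ᶜ)]

end IFin

theorem Lim.finP (L : Lim D) (hU : UpP) : L.FinP := by
  intro X Y α β h0 h1 hX hY
  have a1 := IFin.low L hU X h0 hX
  have a2 := IFin.high L hU Y h1 hY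
  have a3 : (univ : Set (Set ℂ)) ⊆ {A | (∀ x ∈ X, x ∉ Up 0 1 A) ∧ ∀ y ∈ Y, y ∈ Up 0 1 A}
      ∪ ((⋃ x ∈ X, IFin.S x) ∪ ⋃ y ∈ Y, (IFin.S y)ᶜ) := by
    intro A _
    by_cases h : (∀ x ∈ X, x ∉ Up 0 1 A) ∧ ∀ y ∈ Y, y ∈ Up 0 1 A
    · exact Or.inl h
    right
    rcases not_and_or.1 h with h2 | h2
    · push Not at h2
      obtain ⟨x, hx, h3⟩ := h2
      exact Or.inl (mem_biUnion hx h3)
    · push Not at h2
      obtain ⟨y, hy, h3⟩ := h2
      exact Or.inr (mem_biUnion hy h3)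
  have a4 := L.m_mono a3
  rw [L.m_univ] at a4
  linarith [L.m_union {A | (∀ x ∈ X, x ∉ Up 0 1 A) ∧ ∀ y ∈ Y, y ∈ Up 0 1 A}
    ((⋃ x ∈ X, IFin.S x) ∪ ⋃ y ∈ Y, (IFin.S y)ᶜ),
    L.m_union (⋃ x ∈ X, IFin.S x) (⋃ y ∈ Y, (IFin.S y)ᶜ)]

end Vale.Agent.P198
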