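import Vale.Agent.P198.I.Stm

/-! Part I: the final contradiction. -/

open Set Metric Topology Filter

namespace Vale.Agent.P198

namespace IFinal

theorem h8 (m0 : ℝ) (i : ℕ) : m0 / 8 ^ i = 8 * (m0 / 8 ^ (i + 1)) := by
  rw [pow_succ]
  field_simp

theorem bound {B Cs n : ℝ} (hB : 0 < B) (i : ℕ) (h : n * (1 / B / 8 ^ i) ^ 2 ≤ Cs) :
    n ≤ Cs * B ^ 2 * 64 ^ i := by
  have h4 : (1 / B / 8 ^ i) ^ 2 * (B ^ 2 * 64 ^ i) = 1 := by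
    have h5 : (64 : ℝ) ^ i = (8 ^ i) ^ 2 := by
      rw [← pow_mul, mul_comm, pow_mul]
      norm_num
    rw [h5]
    field_simp
  have h6 := mul_le_mul_of_nonneg_right h (show (0 : ℝ) ≤ B ^ 2 * 64 ^ i by positivity)
  rwa [mul_assoc, h4, mul_one, ← mul_assoc] at h6

theorem child {m0 x : ℝ} (hm : 0 < m0) (i r : ℕ) (hr : r ∈ Finset.range 8)
    (hV : 1 / 4 ≤ x ∧ x + m0 / 8 ^ i ≤ 3 / 4) :
    1 / 4 ≤ x + r * (m0 / 8 ^ (i + 1)) ∧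
      x + r * (m0 / 8 ^ (i + 1)) + m0 / 8 ^ (i + 1) ≤ 3 / 4 := by
  have hp : 0 < m0 / 8 ^ (i + 1) := by positivity
  have h3 : (r : ℝ) + 1 ≤ 8 := by exact_mod_cast Finset.mem_range.1 hr
  have h4 : (0 : ℝ) ≤ r := Nat.cast_nonneg r
  have h5 := h8 m0 i
  have h6 := mul_nonneg h4 hp.le
  have h7 := mul_le_mul_of_nonneg_right h3 hp.le
  exact ⟨by linarith [hV.1], by linarith [hV.2]⟩

theorem last {Φ Φ0 W K : ℝ} (h1 : 1 ≤ W) (h2 : W ≤ Φ0) (h3 : Φ0 ≤ Φ) (hK : 0 < K)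
    (h4 : Φ ^ 2 ≤ K * (128 * Φ + W)) (h5 : 129 * K < Φ0) : False := by
  have g4 : K * (128 * Φ + W) ≤ K * (129 * Φ) := mul_le_mul_of_nonneg_left (by linarith) hK.le
  nlinarith

theorem start {θ q c0 n : ℝ} (hθ0 : 0 < θ) (hθ2 : θ ^ 2 = q) (j : ℕ) (h : c0 ≤ q ^ j * n) :
    c0 / θ ^ j ≤ θ ^ j * n := by
  rw [div_le_iff₀ (pow_pos hθ0 _)]
  rw [← hθ2, ← pow_mul, mul_comm 2, pow_mul] at h
  linarith

end IFinal

variable {G Z : Type*} [Group G] [MetricSpace Z] [MulAction G Z] [CompactSpace Z]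
  {D : Dyn G Z} {S : Str D} {E : Geo Z}

open IFinal in
theorem finalP (c : Cst S E) : FinalP c := by
  intro hch hnum hinit hstep
  have hθ0 : 0 < √D.q := Real.sqrt_pos.2 D.q_pos
  have hθ2 : √D.q ^ 2 = D.q := Real.sq_sqrt D.q_pos.le
  have hθ1 : √D.q < 1 := by
    have := D.q_lt
    nlinarith
  obtain ⟨Ca, hCa, hst⟩ := hstep
  obtain ⟨k, hk⟩ := exists_pow_lt_of_lt_one (show 0 < 1 / 256 / Ca by positivity) hθ1
  have hk' : Ca * √D.q ^ k ≤ 1 / 256 := by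
    rw [lt_div_iff₀ hCa] at hk
    linarith
  obtain ⟨Cb, hCb, hst⟩ := hst k
  obtain ⟨Cs, hCs, hbott⟩ := S.bott c.L
  obtain ⟨c0, hc0, j0, hin⟩ := hinit
  have hC := D.one_le_C
  have hL : 0 < c.L := by
    have h1 := c.L2
    have h2 := E.one_le_Λ
    nlinarith
  have hA := D.two_le_A
  obtain ⟨l0, j1, P, ε, h1, h2, hε, hεδ, hPε, hq1, hq2, hU, hW, hfin⟩ :=
    hnum √D.q D.A c0 Cs Cb (c.L + 2 + 2 * D.C) c.δ5 j0 hθ0 hθ1 hA hc0 hCs hCb (by linarith)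
      c.δ5_pos
  rw [hθ2] at hq1 hq2
  obtain ⟨α, hα1, hα2, hα3⟩ := hin j1 h1
  have hB : 0 < 12 * D.A ^ (j1 + 1) := by positivity
  have hW1 : 1 ≤ D.A ^ (l0 + 1) := one_le_pow₀ (by linarith)
  generalize 12 * D.A ^ (j1 + 1) = B at hB hα2 hα3 hU
  have hm : 0 < 1 / B := by positivity
  have hq3 : D.C * D.q ^ l0 ≤ ε ^ 2 :=
    (mul_le_mul_of_nonneg_right (by linarith) (D.qpow_pos l0).le).trans hq1
  have s1 : c0 / √D.q ^ j1 ≤ √D.q ^ j1 * ((c.T j1 α (α + 1 / B / 8 ^ 0) ((0 : ℕ) * ε)).card : ℝ) := by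
    simp only [pow_zero, div_one, Nat.cast_zero, zero_mul]
    exact start hθ0 hθ2 j1 hα3
  have s2 : ∀ (i : ℕ) (x : ℝ) (j : ℕ), 1 / 4 ≤ x ∧ x + 1 / B / 8 ^ i ≤ 3 / 4 →
      ((c.T j x (x + 1 / B / 8 ^ i) (i * ε)).card : ℝ) ≤ Cs * B ^ 2 * 64 ^ i := by
    intro i x j hV
    have hp : 0 < 1 / B / 8 ^ i := by positivity
    have h3 := hbott j x (x + 1 / B / 8 ^ i) (c.T j x (x + 1 / B / 8 ^ i) (i * ε))
      (by linarith [hV.1]) (by linarith) (by linarith [hV.2])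
      fun g hg => ⟨(c.mem_T.1 hg).1, (c.mem_T.1 hg).2.2.2⟩
    rw [add_sub_cancel_left] at h3
    exact bound hB i h3
  have s3 : ∀ i < P, ∀ (x : ℝ) (j : ℕ) (Ψ : ℝ), 1 / 4 ≤ x ∧ x + 1 / B / 8 ^ i ≤ 3 / 4 → l0 ≤ j →
      0 ≤ Ψ → (∀ r ∈ Finset.range 8, ∀ j', l0 ≤ j' → √D.q ^ j' *
        ((c.T j' (x + r * (1 / B / 8 ^ (i + 1)))
          (x + r * (1 / B / 8 ^ (i + 1)) + 1 / B / 8 ^ (i + 1)) ((i + 1 : ℕ) * ε)).card : ℝ) ≤ Ψ) →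
      √D.q ^ j * ((c.T j x (x + 1 / B / 8 ^ i) (i * ε)).card : ℝ) ≤ Ψ / 256 ∨
        (√D.q ^ j * ((c.T j x (x + 1 / B / 8 ^ i) (i * ε)).card : ℝ)) ^ 2 ≤
          Cb * (2 * j + 1) * (Ψ + D.A ^ (l0 + 1)) := by
    intro i hi x j Ψ hV hj hΨ hr
    have hp : 0 < 1 / B / 8 ^ (i + 1) := by positivity
    have h3 : (i : ℝ) ≤ P := by exact_mod_cast hi.le
    have h4 := c.δ5_le
    have h5 := c.δ5_pos
    have h6 := mul_le_mul_of_nonneg_right h3 hε.le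
    have hpar : c.Par l0 ε x (1 / B / 8 ^ (i + 1)) (i * ε) :=
      ⟨hε, hεδ, hq3, hq2, by positivity, by linarith, hp, hV.1, by rw [← h8]; exact hV.2⟩
    have h7 := hst l0 j ε x (1 / B / 8 ^ (i + 1)) (i * ε) Ψ hpar hj hΨ fun r hr' j' hj' => by
      have h9 := hr r hr' j' hj'
      rwa [Nat.cast_succ, add_mul, one_mul] at h9
    rw [← h8] at h7
    refine h7.imp (fun h => h.trans ?_) id
    have h10 := mul_le_mul_of_nonneg_right hk' hΨ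
    linarith
  obtain ⟨j, Φ, f1, f2, f3⟩ := hch P l0 j1 √D.q (Cs * B ^ 2) (D.A ^ (l0 + 1)) Cb
    (c0 / √D.q ^ j1) α (fun i x j => ((c.T j x (x + 1 / B / 8 ^ i) (i * ε)).card : ℝ))
    (fun i x r => x + r * (1 / B / 8 ^ (i + 1)))
    (fun i x => 1 / 4 ≤ x ∧ x + 1 / B / 8 ^ i ≤ 3 / 4)
    hθ0 hθ1 hU (hW1.trans hW) ⟨hα1, by rwa [pow_zero, div_one]⟩ h2 s1
    (fun _ _ _ => Nat.cast_nonneg _) s2 (fun i x hV r hr => child hm i r hr hV) s3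
  have g2 := hfin j (((hW1.trans hW).trans f1).trans f2)
  exact last hW1 hW f1 (by positivity) f3 (by rwa [← mul_assoc])

end Vale.Agent.P198
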