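import Vale.Agent.P198.I.Stm

/-! Part I: many oscillating nodes at the start. -/

open Set Metric Topology Filter

namespace Vale.Agent.P198

namespace IInit

theorem gap (P : Finset ℝ) (x m : ℝ) (hm : 0 < m) :
    ∃ r : ℕ, r ≤ P.card ∧ ∀ p ∈ P, p < x + 2 * r * m ∨ x + 2 * r * m + m < p := by
  by_contra hn
  have h : ∀ r : ℕ, ∃ p : ℝ, r ≤ P.card → p ∈ P ∧ x + 2 * r * m ≤ p ∧ p ≤ x + 2 * r * m + m := by
    intro r
    by_contra h1
    refine hn ⟨r, ?_, fun p hp => ?_⟩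
    · by_contra h2
      exact h1 ⟨0, fun h3 => absurd h3 h2⟩
    · by_contra h2
      rw [not_or, not_lt, not_lt] at h2
      exact h1 ⟨p, fun _ => ⟨hp, h2⟩⟩
  choose f hf using h
  obtain ⟨r, hr, s, hs, hne, he⟩ := Finset.exists_ne_map_eq_of_card_lt_of_maps_to
    (s := Finset.range (P.card + 1)) (t := P) (by simp) (f := f)
    fun r hr => (hf r (Nat.lt_succ_iff.1 (Finset.mem_range.1 (Finset.mem_coe.1 hr)))).1
  obtain ⟨-, a1, a2⟩ := hf r (Nat.lt_succ_iff.1 (Finset.mem_range.1 hr))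
  obtain ⟨-, b1, b2⟩ := hf s (Nat.lt_succ_iff.1 (Finset.mem_range.1 hs))
  rw [he] at a1 a2
  rcases lt_or_gt_of_ne hne with h | h
  · have : (r : ℝ) + 1 ≤ s := by exact_mod_cast h
    nlinarith
  · have : (s : ℝ) + 1 ≤ r := by exact_mod_cast h
    nlinarith

end IInit

variable {G Z : Type*} [Group G] [MetricSpace Z] [MulAction G Z] [CompactSpace Z] {D : Dyn G Z}
  {S : Str D} {E : Geo Z}

omit [CompactSpace Z] in
theorem Cst.initP (c : Cst S E) (hS : SumP G G) : c.InitP := by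
  classical
  have hC := D.C_pos
  have hδ := c.δ_pos
  have hδ5 := c.δ5_pos
  have hΛ := E.one_le_Λ
  have hL2 := c.L2
  obtain ⟨j0, hj0⟩ := eventually_atTop.1
    ((D.ev_small (24 * D.C) c.δ hδ).and (D.ev_small c.L c.δ5 hδ5))
  refine ⟨c.δ / (24 * D.C), by positivity, j0, fun j hj => ?_⟩
  obtain ⟨s1, s2⟩ := hj0 j hj
  have hu := D.qpow_pos j
  have hN : 1 ≤ D.A ^ (j + 1) := one_le_pow₀ (by linarith [D.two_le_A])
  obtain ⟨m, hm⟩ : ∃ m : ℝ, m = 1 / (12 * D.A ^ (j + 1)) := ⟨_, rfl⟩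
  have hm0 : 0 < m := by rw [hm]; positivity
  have hmN : 12 * D.A ^ (j + 1) * m = 1 := by rw [hm]; field_simp
  rw [← hm]
  obtain ⟨V, hV⟩ : ∃ V : G → Set ℝ, V = fun g => S.v ''
    {y | JoinedIn (S.R ∩ ball (D.pt g) (c.L * D.q ^ j)) (D.pt g) y} := ⟨_, rfl⟩
  obtain ⟨r, hr, hgap⟩ := IInit.gap
    ((D.lev j).image (fun g => sInf (V g)) ∪ (D.lev j).image fun g => sSup (V g)) (1 / 4) m hm0
  have hr' : (r : ℝ) ≤ 2 * D.A ^ (j + 1) := by
    have h1 : r ≤ (D.lev j).card + (D.lev j).card :=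
      hr.trans ((Finset.card_union_le _ _).trans
        (add_le_add Finset.card_image_le Finset.card_image_le))
    have h2 : (r : ℝ) ≤ (D.lev j).card + (D.lev j).card := by exact_mod_cast h1
    linarith [D.card_lev j]
  have hr0 : 0 ≤ 2 * (r : ℝ) * m := by positivity
  obtain ⟨α, hα⟩ : ∃ α : ℝ, α = 1 / 4 + 2 * r * m := ⟨_, rfl⟩
  rw [← hα] at hgap
  have hα1 : 1 / 4 ≤ α := by linarith
  have hα2 : α + m ≤ 3 / 4 := by
    nlinarith [mul_le_mul_of_nonneg_right hr' hm0.le, mul_le_mul_of_nonneg_right hN hm0.le]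
  refine ⟨α, hα1, hα2, ?_⟩
  have t0 : 0 < α + m / 2 := by linarith
  have t1 : α + m / 2 < 1 := by linarith
  have hb := S.R_cpt.image_of_continuousOn S.v_cont
  have hVs : ∀ g, V g ⊆ S.v '' S.R := fun g => by
    rw [hV]
    exact image_mono fun y hy => hy.target_mem.1
  have key := hS.cover (c.T j α (α + m) 0) (fun g => infDist (D.pt g) S.Lf)
    (fun _ => 2 * D.C * D.q ^ j) (c.δ / 3 + 2 * D.C * D.q ^ j) (2 * c.δ / 3 - 2 * D.C * D.q ^ j)
    (fun _ _ => by positivity) fun τ h1 h2 => ?_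
  · rw [Finset.sum_const, nsmul_eq_mul] at key
    rw [div_le_iff₀ (by positivity)]
    nlinarith
  obtain ⟨x0, hx0, hx0'⟩ := S.K_left _ t0 t1
  obtain ⟨x1, hx1, hx1'⟩ := S.K_right _ t0 t1
  have hCu : 0 < D.C * D.q ^ j := by positivity
  obtain ⟨x, hx, hxτ⟩ := (S.K_conn _ t0 t1).intermediate_value hx0 hx1
    (continuous_infDist_pt S.Lf).continuousOn
    (show τ ∈ Icc (infDist x0 S.Lf) (infDist x1 S.Lf) from
      ⟨by rw [infDist_zero_of_mem hx0']; linarith, by linarith [c.rt x1 hx1']⟩)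
  have hxτ' : infDist x S.Lf = τ := hxτ
  obtain ⟨g, hg, hd⟩ := D.exists_hit j x
  have d1 := infDist_le_infDist_add_dist (s := S.Lf) (x := x) (y := D.pt g)
  have d2 := infDist_le_infDist_add_dist (s := S.Lf) (x := D.pt g) (y := x)
  rw [dist_comm] at d2
  have hv := S.K_val _ t0 t1 x hx
  have hball := c.cen x (S.K_sub _ t0 t1 hx) (by linarith) (by linarith) (by linarith)
    (by linarith)
  have l1 : 2 * D.C * E.Λ * D.q ^ j ≤ c.L * D.q ^ j :=
    mul_le_mul_of_nonneg_right (by linarith) hu.le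
  have l2 : 2 * D.C * D.q ^ j ≤ 2 * D.C * E.Λ * D.q ^ j := by
    nlinarith [mul_le_mul_of_nonneg_right hΛ hCu.le]
  have hJ : JoinedIn (S.R ∩ ball (D.pt g) (c.L * D.q ^ j)) (D.pt g) x := by
    refine (E.llc (D.pt g) x).mono fun w hw => ?_
    rw [mem_closedBall, dist_comm (D.pt g) x] at hw
    have h3 : dist w (D.pt g) < c.L * D.q ^ j := by
      nlinarith [mul_lt_mul_of_pos_left hd (by linarith : 0 < E.Λ)]
    refine ⟨S.Ro_sub (hball ?_), h3⟩
    rw [mem_ball]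
    linarith [dist_triangle_right w x (D.pt g)]
  have hmem : α + m / 2 ∈ V g := by
    rw [hV]
    exact ⟨x, hJ, hv⟩
  have hgl := D.mem_lev.2 hg
  have a1 := csInf_le (hb.bddBelow.mono (hVs g)) hmem
  have a2 := le_csSup (hb.bddAbove.mono (hVs g)) hmem
  have b1 := (hgap _ (Finset.mem_union_left _ (Finset.mem_image_of_mem _ hgl))).resolve_right
    (by linarith)
  have b2 := (hgap _ (Finset.mem_union_right _ (Finset.mem_image_of_mem _ hgl))).resolve_left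
    (by linarith)
  obtain ⟨p1, hp1, c1⟩ := exists_lt_of_csInf_lt ⟨_, hmem⟩ b1
  obtain ⟨p2, hp2, c2⟩ := exists_lt_of_lt_csSup ⟨_, hmem⟩ b2
  rw [hV] at hp1 hp2
  obtain ⟨y1, hy1, rfl⟩ := hp1
  obtain ⟨y2, hy2, rfl⟩ := hp2
  refine ⟨g, c.mem_T.2 ⟨hg, by linarith, by linarith, y1, y2, hy1.symm.trans hy2, c1.le, c2.le⟩, ?_⟩
  rw [abs_le]
  constructor <;> linarith

end Vale.Agent.P198
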