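import Vale.Agent.P198.I.Stm

/-! The limit of the optimal flows along an ultrafilter. -/

open Set Metric Topology Filter

namespace Vale.Agent.P198

variable {G Z : Type*} [Group G] [MetricSpace Z] [MulAction G Z]

namespace ILim

theorem wt_nonneg {ι : Type*} (T : Finset ι) {μ : ι → ℝ} (hμ : ∀ i, 0 ≤ μ i) (E : Set ι) :
    0 ≤ wt T μ E := Finset.sum_nonneg fun i _ => hμ i

theorem wt_le {ι : Type*} (T : Finset ι) {μ : ι → ℝ} (hμ : ∀ i, 0 ≤ μ i) (E : Set ι) :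
    wt T μ E ≤ ∑ i ∈ T, μ i := by
  classical
  exact Finset.sum_le_sum_of_subset_of_nonneg (Finset.filter_subset _ _) fun i _ _ => hμ i

theorem wt_add {ι : Type*} (T : Finset ι) (μ : ι → ℝ) {E E' : Set ι} (h : Disjoint E E') :
    wt T μ (E ∪ E') = wt T μ E + wt T μ E' := by
  classical
  simp only [wt, Finset.sum_filter, ← Finset.sum_add_distrib]
  refine Finset.sum_congr rfl fun i _ => ?_
  by_cases h1 : i ∈ E
  · have h2 : i ∉ E' := fun h2 => Set.disjoint_left.1 h h1 h2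
    simp [h1, h2]
  · by_cases h2 : i ∈ E' <;> simp [h1, h2]

theorem wt_all {ι : Type*} {T : Finset ι} (μ : ι → ℝ) {E : Set ι} (h : ∀ i ∈ T, i ∈ E) :
    wt T μ E = ∑ i ∈ T, μ i := by
  classical
  rw [wt, Finset.filter_true_of_mem h]

theorem wt_none {ι : Type*} {T : Finset ι} (μ : ι → ℝ) {E : Set ι} (h : ∀ i ∈ T, i ∉ E) :
    wt T μ E = 0 := by
  classical
  rw [wt, Finset.filter_false_of_mem h, Finset.sum_empty]

theorem mass_nonneg (D : Dyn G Z) (n : ℕ) (ρ : G → ℝ) : 0 ≤ D.mass n ρ :=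
  Finset.sum_nonneg fun _ _ => sq_nonneg _

theorem fam_ne {A : Set ℂ} (h : A ∈ Fam) : A.Nonempty := h.1.conn.nonempty

end ILim

open ILim in
theorem limP (D : Dyn G Z) (hM : ModP D) (hF : FlowP D (Set ℂ)) (hI : InvP D) (hS : SerP D) :
    LimP D := by
  rintro ⟨R⟩
  have hne : Fam.Nonempty := by
    by_contra h
    have h1 := R.low 0
    rw [not_nonempty_iff_eq_empty.1 h, image_empty] at h1
    have h2 := hM.le (R.n 0) (fun _ => 0) ∅ ⟨fun _ => le_rfl, fun _ hA => hA.elim⟩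
    have h3 : D.mass (R.n 0) (fun _ => 0) = 0 := by simp [Dyn.mass]
    linarith [R.M_pos 0]
  choose T μ hT hμ hs hm using fun k => hF.ex (R.n k) Fam (fun A => R.ψ '' A) hne
    fun A hA => (fam_ne hA).image _
  obtain ⟨ms, hms⟩ : ∃ ms : ℕ → ℝ,
      ∀ k, ms k = D.mass (R.n k) (D.dens (R.n k) (T k) (μ k) fun A => R.ψ '' A) :=
    ⟨_, fun _ => rfl⟩
  have hms0 : ∀ k, 0 ≤ ms k := fun k => hms k ▸ mass_nonneg D _ _
  have hm1 : ∀ k, R.M k * ms k ≤ 1 := fun k =>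
    (mul_le_mul_of_nonneg_right (R.low k) (hms0 k)).trans (hms k ▸ hm k)
  obtain ⟨U, hU⟩ : ∃ U : Ultrafilter ℕ, (U : Filter ℕ) ≤ atTop :=
    ⟨hyperfilter ℕ, Nat.hyperfilter_le_atTop⟩
  have hw : ∀ k E, wt (T k) (μ k) E ∈ Icc (0 : ℝ) 1 := fun k E =>
    ⟨wt_nonneg _ (hμ k) E, (wt_le _ (hμ k) E).trans_eq (hs k)⟩
  have hlim : ∀ E : Set (Set ℂ), ∃ a ∈ Icc (0 : ℝ) 1,
      Tendsto (fun k => wt (T k) (μ k) E) U (𝓝 a) := fun E =>
    isCompact_Icc.ultrafilter_le_nhds (U.map fun k => wt (T k) (μ k) E)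
      (le_principal_iff.2 (mem_map.2 (univ_mem' fun k => hw k E)))
  choose m hm01 hmt using hlim
  have hhalf : ∀ E, 0 < m E → ∀ᶠ k in (U : Filter ℕ), m E / 2 ≤ wt (T k) (μ k) E := fun E hE =>
    (hmt E).eventually (eventually_ge_nhds (half_lt_self hE))
  refine ⟨⟨R.ψ, R.emb, m,
    fun Γ => ∃ c : ℝ, 0 < c ∧ ∀ᶠ k in (U : Filter ℕ), c * R.M k ≤ D.Mod (R.n k) Γ, R.C1,
    fun E => (hm01 E).1, fun E E' h => ?_, ?_, ?_, ?_, ?_, ?_, ?_, ?_⟩⟩
  · refine tendsto_nhds_unique (hmt (E ∪ E')) ?_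
    simp only [wt_add _ _ h]
    exact (hmt E).add (hmt E')
  · refine tendsto_nhds_unique (hmt Fam) ?_
    simp only [fun k => wt_all (μ k) (hT k), hs]
    exact tendsto_const_nhds
  · refine tendsto_nhds_unique (hmt Famᶜ) ?_
    have e : ∀ k, wt (T k) (μ k) Famᶜ = 0 := fun k => wt_none _ fun i hi h => h (hT k i hi)
    simp only [e]
    exact tendsto_const_nhds
  · rintro Γ Γ' h hsub ⟨c, hc, hev⟩
    exact ⟨c, hc, hev.mono fun k hk =>
      hk.trans (hM.ovp _ Γ Γ' h fun A hA => ⟨A, hsub hA, subset_rfl⟩)⟩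
  · rintro g Γ h ⟨c, hc, hev⟩
    obtain ⟨c', hc', hi⟩ := hI g
    refine ⟨c' * c, mul_pos hc' hc, hev.mono fun k hk => le_trans ?_ (hi _ Γ h)⟩
    rw [mul_assoc]
    exact mul_le_mul_of_nonneg_left hk hc'.le
  · intro E hE hpos
    refine ⟨(m E / 2) ^ 2, by positivity, (hhalf E hpos).mono fun k hk => ?_⟩
    refine le_of_forall_pos_le_add fun ε hε => ?_
    obtain ⟨ρ, h1, h2⟩ := hM.near (R.n k) ((fun A => R.ψ '' A) '' E) ε
      (by rintro _ ⟨A, hA, rfl⟩; exact (fam_ne (hE hA)).image _) hε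
    have h3 := hF.test (R.n k) (T k) (μ k) (fun A => R.ψ '' A) E ρ (hμ k) h1.1
      fun A _ hA => h1.2 _ ⟨A, hA, rfl⟩
    rw [← hms] at h3
    have h4 : (m E / 2) ^ 2 ≤ wt (T k) (μ k) E ^ 2 := by gcongr
    have h5 := mul_le_mul_of_nonneg_right (h4.trans h3) (R.M_pos k).le
    have h6 := mul_le_mul_of_nonneg_left (hm1 k) (mass_nonneg D (R.n k) ρ)
    nlinarith
  · rintro E Γ ⟨c, hc, hev⟩ hx
    by_contra hne0
    have hpos : 0 < m E := lt_of_le_of_ne (hm01 E).1 (Ne.symm hne0)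
    have ha : 0 < (m E / 2) ^ 2 * c := by positivity
    have hM1 : ∀ᶠ k in (U : Filter ℕ), 1 / ((m E / 2) ^ 2 * c) + 1 ≤ R.M k :=
      (R.M_lim.eventually_ge_atTop _).filter_mono hU
    obtain ⟨k, h1, h2, h3⟩ := ((hhalf E hpos).and (hev.and hM1)).exists
    have h4 := hF.cross (R.n k) (T k) (μ k) (fun A => R.ψ '' A) E Γ (hμ k)
      fun A hA hAE => hx A hAE (hT k A hA)
    rw [← hms] at h4
    have h5 : (m E / 2) ^ 2 * (c * R.M k) ≤ wt (T k) (μ k) E ^ 2 * D.Mod (R.n k) Γ :=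
      mul_le_mul (by gcongr) h2 (mul_pos hc (R.M_pos k)).le (sq_nonneg _)
    have h6 := mul_le_mul_of_nonneg_left (h5.trans h4) (R.M_pos k).le
    have h7 : 0 < 1 / ((m E / 2) ^ 2 * c) := by positivity
    have h8 : 1 < (m E / 2) ^ 2 * c * R.M k := by
      have := mul_le_mul_of_nonneg_left h3 ha.le
      rw [mul_add, mul_one_div_cancel ha.ne'] at this
      linarith
    have h9 : 1 * 1 < (m E / 2) ^ 2 * c * R.M k * R.M k :=
      mul_lt_mul h8 (by linarith) one_pos (by linarith)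
    nlinarith [hm1 k]
  · intro S E hp hd hx
    rcases S.eq_empty_or_nonempty with rfl | hS0
    · simpa using R.C1_pos.le
    have hev := (R.n_lim.eventually (hS S hS0 hp hd)).filter_mono hU
    refine le_of_tendsto (((hmt E).pow 2).const_mul (S.card : ℝ)) (hev.mono fun k hk => ?_)
    obtain ⟨ρ, h1, h2, -, h3⟩ := hk _ (R.test k)
    have h4 := hF.test (R.n k) (T k) (μ k) (fun A => R.ψ '' A) E ρ (hμ k) h1
      fun A hA hAE => h3 _ (hx A hAE (hT k A hA))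
    rw [← hms] at h4
    have h5 := mul_le_mul_of_nonneg_left h4 (Nat.cast_nonneg (α := ℝ) S.card)
    have h6 := mul_le_mul_of_nonneg_right h2 (hms0 k)
    have h7 := mul_le_mul_of_nonneg_left (hm1 k) R.C1_pos.le
    nlinarith

end Vale.Agent.P198
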