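import Vale.Agent.P198.I.Stm

/-! Part I: level lines as limits along an ultrafilter. -/

open Set Metric Topology Filter

namespace Vale.Agent.P198

variable {G Z : Type*} [Group G] [MetricSpace Z] [MulAction G Z] [CompactSpace Z] {D : Dyn G Z}

namespace ILine

theorem rect_cpt (a b c d : ℝ) : IsCompact (rect a b c d) := by
  have e : rect a b c d = Icc a b ×ℂ Icc c d := by
    ext w
    simp only [rect, mem_ofPred_eq, Complex.mem_reProdIm, mem_Icc, and_assoc]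
  rw [e]
  exact isCompact_Icc.reProdIm isCompact_Icc

/-- The limit set. -/
def lim (W : Ultrafilter (Set ℂ)) : Set ℂ :=
  {w | ∀ ε : ℝ, 0 < ε → {A : Set ℂ | (A ∩ ball w ε).Nonempty} ∈ W}

variable {W : Ultrafilter (Set ℂ)} {R : Set ℂ}

theorem lim_meet {Q : Set ℂ} (hQ : IsCompact Q) (h : {A : Set ℂ | (A ∩ Q).Nonempty} ∈ W) :
    (lim W ∩ Q).Nonempty := by
  classical
  let f : Set ℂ → ℂ := fun A => if h : (A ∩ Q).Nonempty then h.some else 0
  have hf : ∀ A : Set ℂ, (A ∩ Q).Nonempty → f A ∈ A ∩ Q := fun A hA => by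
    simp only [f, dif_pos hA]
    exact hA.some_mem
  obtain ⟨x, hx, hle⟩ := hQ.ultrafilter_le_nhds (W.map f) (by
    rw [le_principal_iff, Ultrafilter.mem_coe, Ultrafilter.mem_map]
    exact mem_of_superset h fun A hA => (hf A hA).2)
  refine ⟨x, fun ε hε => ?_, hx⟩
  have h1 : f ⁻¹' ball x ε ∈ W := Ultrafilter.mem_map.1 (hle (ball_mem_nhds x hε))
  exact mem_of_superset (inter_mem h h1) fun A hA => ⟨f A, (hf A hA.1).1, hA.2⟩

theorem lim_closed : IsClosed (lim W) := by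
  refine isClosed_of_closure_subset fun w hw ε hε => ?_
  obtain ⟨y, hy, hd⟩ := Metric.mem_closure_iff.1 hw (ε / 2) (half_pos hε)
  refine mem_of_superset (hy (ε / 2) (half_pos hε)) fun A ⟨x, hx, hx'⟩ => ⟨x, hx, ?_⟩
  rw [mem_ball] at hx' ⊢
  linarith [dist_triangle x y w, dist_comm w y]

theorem lim_open {U : Set ℂ} (hU : IsOpen U) {x : ℂ} (hx : x ∈ lim W) (hxU : x ∈ U) :
    {A : Set ℂ | (A ∩ U).Nonempty} ∈ W := by
  obtain ⟨ε, hε, hb⟩ := Metric.isOpen_iff.1 hU x hxU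
  exact mem_of_superset (hx ε hε) fun A ⟨y, hy, hy'⟩ => ⟨y, hy, hb hy'⟩

theorem lim_sub (hR : IsCompact R) (h : {A : Set ℂ | A ⊆ R} ∈ W) : lim W ⊆ R := by
  intro x hx
  by_contra hn
  obtain ⟨A, ⟨y, hy, hy'⟩, hA⟩ := Ultrafilter.nonempty_of_mem
    (inter_mem (lim_open hR.isClosed.isOpen_compl hx hn) h)
  exact hy' (hA hy)

theorem lim_in (hR : IsCompact R) (h : {A : Set ℂ | A ⊆ R} ∈ W) {U : Set ℂ} (hU : IsOpen U)
    (hK : lim W ⊆ U) : {A : Set ℂ | A ⊆ U} ∈ W := by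
  by_contra hn
  have h1 := Ultrafilter.compl_mem_iff_notMem.2 hn
  obtain ⟨x, hx, hx'⟩ := lim_meet (W := W) (hR.diff hU) (mem_of_superset (inter_mem h h1)
    fun A hA => by
      obtain ⟨y, hy, hy'⟩ := not_subset.1 hA.2
      exact ⟨y, hy, hA.1 hy, hy'⟩)
  exact hx'.2 (hK hx)

theorem lim_near (hR : IsCompact R) (h : {A : Set ℂ | A ⊆ R} ∈ W) {ε : ℝ} (hε : 0 < ε) :
    {A : Set ℂ | (∀ x ∈ A, ∃ y ∈ lim W, dist x y < ε) ∧ ∀ y ∈ lim W, ∃ x ∈ A, dist x y < ε}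
      ∈ W := by
  have hK : IsCompact (lim W) := hR.of_isClosed_subset lim_closed (lim_sub hR h)
  have h1 := lim_in hR h (isOpen_thickening (δ := ε) (E := lim W)) (self_subset_thickening hε _)
  obtain ⟨T, hT, hfin, hcov⟩ := hK.finite_cover_balls (half_pos hε)
  have h2 : (⋂ y ∈ T, {A : Set ℂ | (A ∩ ball y (ε / 2)).Nonempty}) ∈ (W : Filter (Set ℂ)) :=
    (biInter_mem hfin).2 fun y hy => hT hy _ (half_pos hε)
  refine mem_of_superset (inter_mem h1 h2) fun A hA =>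
    ⟨fun x hx => mem_thickening_iff.1 (hA.1 hx), fun y hy => ?_⟩
  obtain ⟨z, hz, hyz⟩ := mem_iUnion₂.1 (hcov hy)
  obtain ⟨x, hx, hxz⟩ := mem_iInter₂.1 hA.2 z hz
  refine ⟨x, hx, ?_⟩
  rw [mem_ball] at hyz hxz
  linarith [dist_triangle_right x y z]

theorem lim_conn (hR : IsCompact R) (h : {A : Set ℂ | A ⊆ R} ∈ W)
    (hc : {A : Set ℂ | IsPreconnected A} ∈ W) : IsPreconnected (lim W) := by
  refine isPreconnected_closed_iff.2 fun t t' ht ht' hcov ⟨x, hx⟩ ⟨y, hy⟩ => ?_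
  by_contra hn
  have hd : Disjoint (lim W ∩ t) (lim W ∩ t') :=
    disjoint_left.2 fun z hz hz' => hn ⟨z, hz.1, hz.2, hz'.2⟩
  obtain ⟨U, V, hU, hV, hsU, hsV, hUV⟩ :=
    normal_separation (lim_closed.inter ht) (lim_closed.inter ht') hd
  have h1 := lim_in hR h (hU.union hV) fun z hz => (hcov hz).imp (fun h => hsU ⟨hz, h⟩)
    fun h => hsV ⟨hz, h⟩
  obtain ⟨A, ⟨⟨a1, a2⟩, a3⟩, a4⟩ := Ultrafilter.nonempty_of_mem
    (inter_mem (inter_mem (inter_mem hc h1) (lim_open hU hx.1 (hsU hx)))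
      (lim_open hV hy.1 (hsV hy)))
  obtain ⟨z, -, hz⟩ := a1 U V hU hV a2 a3 a4
  exact disjoint_left.1 hUV hz.1 hz.2

theorem ex_lo (v : ℂ → ℝ) {t : ℝ} (ht : 0 < t) (X : Finset ℂ) (h : ∀ x ∈ X, v x < t) :
    ∃ α, 0 ≤ α ∧ α < t ∧ ∀ x ∈ X, v x ≤ α := by
  classical
  induction X using Finset.induction_on with
  | empty => exact ⟨0, le_rfl, ht, fun _ hx => absurd hx (Finset.notMem_empty _)⟩
  | insert a X _ ih =>
    obtain ⟨α, h0, h1, h2⟩ := ih fun x hx => h x (Finset.mem_insert_of_mem hx)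
    refine ⟨max α (v a), le_max_of_le_left h0, max_lt h1 (h a (Finset.mem_insert_self _ _)),
      fun x hx => ?_⟩
    rcases Finset.mem_insert.1 hx with rfl | hx
    · exact le_max_right _ _
    · exact le_max_of_le_left (h2 x hx)

theorem ex_hi (v : ℂ → ℝ) {t : ℝ} (ht : t < 1) (X : Finset ℂ) (h : ∀ x ∈ X, t < v x) :
    ∃ β, β ≤ 1 ∧ t < β ∧ ∀ x ∈ X, β ≤ v x := by
  obtain ⟨α, h0, h1, h2⟩ := ex_lo (fun x => 1 - v x) (t := 1 - t) (by linarith) X
    fun x hx => by linarith [h x hx]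
  exact ⟨1 - α, by linarith, by linarith, fun x hx => by linarith [h2 x hx]⟩

/-- The sets of the finite intersection property. -/
def SS (X Y : Finset ℂ) : Set (Set ℂ) :=
  {A | (∀ x ∈ X, x ∉ Up 0 1 A) ∧ ∀ y ∈ Y, y ∈ Up 0 1 A}

omit [CompactSpace Z] in
theorem null_sub (L : Lim D) {E E' : Set (Set ℂ)} (h : E ⊆ E') (h0 : L.m E' = 0) : L.m E = 0 :=
  le_antisymm (h0 ▸ L.m_mono h) (L.m_nonneg _)

open Classical in
/-- The filter of families of full weight. -/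
def F0 (L : Lim D) (t : ℝ) : Filter (Set ℂ) where
  sets := {E | ∃ X Y : Finset ℂ, (∀ x ∈ X, L.v x < t) ∧ (∀ y ∈ Y, t < L.v y) ∧
    L.m (SS X Y \ E) = 0}
  univ_sets := ⟨∅, ∅, by simp, by simp, by rw [sdiff_univ, L.m_empty]⟩
  sets_of_superset := fun ⟨X, Y, h1, h2, h3⟩ h =>
    ⟨X, Y, h1, h2, null_sub L (sdiff_subset_sdiff_right h) h3⟩
  inter_sets := by
    rintro E E' ⟨X, Y, h1, h2, h3⟩ ⟨X', Y', h1', h2', h3'⟩
    refine ⟨X ∪ X', Y ∪ Y', fun x hx => (Finset.mem_union.1 hx).elim (h1 x) (h1' x),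
      fun x hx => (Finset.mem_union.1 hx).elim (h2 x) (h2' x), ?_⟩
    have h4 := L.m_union (SS X Y \ E) (SS X' Y' \ E')
    rw [h3, h3', add_zero] at h4
    refine null_sub L (fun A hA => ?_) (le_antisymm h4 (L.m_nonneg _))
    by_cases hE : A ∈ E
    · exact Or.inr ⟨⟨fun x hx => hA.1.1 x (Finset.mem_union_right _ hx),
        fun x hx => hA.1.2 x (Finset.mem_union_right _ hx)⟩, fun hE' => hA.2 ⟨hE, hE'⟩⟩
    · exact Or.inl ⟨⟨fun x hx => hA.1.1 x (Finset.mem_union_left _ hx),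
        fun x hx => hA.1.2 x (Finset.mem_union_left _ hx)⟩, hE⟩

omit [CompactSpace Z] in
theorem ex_ultra (L : Lim D) (hF : L.FinP) {t : ℝ} (h0 : 0 < t) (h1 : t < 1) :
    ∃ W : Ultrafilter (Set ℂ), (∀ E ∈ W, 0 < L.m E) ∧ Fam ∈ W ∧
      (∀ x, L.v x < t → {A | x ∉ Up 0 1 A} ∈ W) ∧ ∀ y, t < L.v y → {A | y ∈ Up 0 1 A} ∈ W := by
  have hne : (F0 L t).NeBot := by
    refine ⟨fun hb => ?_⟩
    have he : (∅ : Set (Set ℂ)) ∈ F0 L t := by rw [hb]; exact mem_bot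
    obtain ⟨X, Y, a1, a2, a3⟩ := he
    obtain ⟨α, b1, b2, b3⟩ := ex_lo L.v h0 X a1
    obtain ⟨β, c1, c2, c3⟩ := ex_hi L.v h1 Y a2
    have := hF X Y α β b1 c1 b3 c3
    rw [sdiff_empty] at a3
    change β - α ≤ L.m (SS X Y) at this
    linarith
  have hnull : ∀ E, L.m E = 0 → Eᶜ ∈ F0 L t := fun E hE =>
    ⟨∅, ∅, by simp, by simp, null_sub L (fun A hA => not_not.1 hA.2) hE⟩
  have hle := Ultrafilter.of_le (F0 L t)
  refine ⟨Ultrafilter.of (F0 L t), fun E hE => ?_, ?_, fun x hx => hle ?_, fun y hy => hle ?_⟩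
  · refine (L.m_nonneg E).lt_of_ne fun h => ?_
    exact Ultrafilter.compl_mem_iff_notMem.1 (hle (hnull E h.symm)) hE
  · have := hle (hnull _ L.m_compl)
    rwa [compl_compl] at this
  · exact ⟨{x}, ∅, by simpa using hx, by simp, null_sub L
      (fun A hA => hA.2 (hA.1.1 x (Finset.mem_singleton_self x))) L.m_empty⟩
  · exact ⟨∅, {y}, by simp, by simpa using hy, null_sub L
      (fun A hA => hA.2 (hA.1.2 y (Finset.mem_singleton_self y))) L.m_empty⟩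

end ILine

open ILine

omit [CompactSpace Z] in
theorem Lim.lineP (L : Lim D) (hF : L.FinP) (hP : PathP ℂ) : L.LineP := by
  intro t h0 h1
  obtain ⟨W, hpos, hfam, hlo, hhi⟩ := ex_ultra L hF h0 h1
  have hR := rect_cpt 0 1 0 1
  have hsub : {A : Set ℂ | A ⊆ rect 0 1 0 1} ∈ W := mem_of_superset hfam fun A hA => hA.2
  have side : ∀ a : ℝ, (∀ A ∈ Fam, ∃ x ∈ A, x.re = a) → ∃ x ∈ lim W, x.re = a := fun a ha => by
    obtain ⟨x, hx, hx'⟩ := lim_meet (W := W)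
      (hR.inter_right (isClosed_eq Complex.continuous_re (continuous_const (y := a))))
      (mem_of_superset hfam fun A hA => by
        obtain ⟨x, hx, hx'⟩ := ha A hA
        exact ⟨x, hx, hA.2 hx, hx'⟩)
    exact ⟨x, hx, hx'.2⟩
  refine ⟨lim W, hR.of_isClosed_subset lim_closed (lim_sub hR hsub),
    lim_conn hR hsub (mem_of_superset hfam fun A hA => hA.1.conn.isConnected.isPreconnected),
    lim_sub hR hsub, side 0 fun A hA => hA.1.left, side 1 fun A hA => hA.1.right,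
    fun ε hε => hpos _ (lim_near hR hsub hε), fun P x y hPs hj hx hy => ?_⟩
  obtain ⟨Q, hQP, hQ, hQc, hxQ, hyQ⟩ := hP.cpt P x y hj
  obtain ⟨z, hz, hz'⟩ := lim_meet (W := W) hQ
    (mem_of_superset (inter_mem (hlo x hx) (hhi y hy)) fun A hA => by
      by_contra hn
      refine hA.1 (up_join ((hQc.joinedIn x hxQ y hyQ).mono fun w hw => ⟨?_, fun hwA => ?_⟩) hA.2)
      · have := hPs (hQP hw)
        exact ⟨this.1, this.2.1⟩
      · exact hn ⟨w, hwA, hw⟩)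
  exact ⟨z, hz, hQP hz'⟩

end Vale.Agent.P198
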