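import Vale.Agent.P198.I.Stm

/-! The choice of parameters. -/

open Set Metric Topology Filter

namespace Vale.Agent.P198

namespace INum

theorem ev {ρ : ℝ} (h0 : 0 ≤ ρ) (h1 : ρ < 1) (C : ℝ) {η : ℝ} (hη : 0 < η) :
    ∀ᶠ l : ℕ in atTop, C * ((l : ℝ) ^ 2 * ρ ^ l) < η := by
  have h := (tendsto_pow_const_mul_const_pow_of_abs_lt_one 2
    (show |ρ| < 1 by rwa [abs_of_nonneg h0])).const_mul C
  rw [mul_zero] at h
  exact h.eventually (gt_mem_nhds hη)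

theorem ev2 (C : ℝ) {η : ℝ} (hη : 0 < η) :
    ∀ᶠ l : ℕ in atTop, C * (l : ℝ) ^ 2 < η * 2 ^ l := by
  filter_upwards [ev (ρ := 1 / 2) (by norm_num) (by norm_num) C hη] with l hl
  rwa [one_div, inv_pow, ← div_eq_mul_inv, ← mul_div_assoc, div_lt_iff₀ (by positivity)] at hl

end INum

open INum in
theorem numP : NumP := by
  intro θ A c0 Cs Cb C' δ' j0 h0 h1 hA hc0 hCs hCb hC' hδ
  obtain ⟨r0, hr0⟩ := exists_pow_lt_of_lt_one (show 0 < (2 * A)⁻¹ by positivity) h1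
  obtain ⟨r, hr1, hr⟩ : ∃ r : ℕ, 1 ≤ r ∧ θ ^ r ≤ (2 * A)⁻¹ :=
    ⟨r0 + 1, by omega, (pow_le_pow_of_le_one h0.le h1.le (Nat.le_succ _)).trans hr0.le⟩
  obtain ⟨e, he⟩ := pow_unbounded_of_one_lt A (show (1 : ℝ) < 2 by norm_num)
  obtain ⟨e', he'⟩ := pow_unbounded_of_one_lt (144 * Cs) (show (1 : ℝ) < 2 by norm_num)
  obtain ⟨b, hb⟩ := exists_pow_lt_of_lt_one (show (0 : ℝ) < 128⁻¹ by norm_num) h1
  obtain ⟨K, hK⟩ : ∃ K : ℕ, K = e' + 2 * e * (r + 1) + 1 := ⟨_, rfl⟩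
  have hm : 0 < min δ' 1 := lt_min hδ one_pos
  obtain ⟨l, ⟨a1, a2⟩, ⟨a3, a4⟩, a5⟩ := (((ev (ρ := θ ^ 2) (by positivity)
    (pow_lt_one₀ h0.le h1 two_ne_zero) (C' * K ^ 2) (pow_pos hm 2)).and (ev2 A hc0)).and
    (((ev2 (129 * Cb * (2 * b * K + 1)) hc0).and (eventually_ge_atTop 1)).and
      (eventually_ge_atTop j0))).exists
  obtain ⟨P, hP⟩ : ∃ P : ℕ, P = e' + 2 * e * (r * l + 1) := ⟨_, rfl⟩
  have hPK : P + 1 ≤ K * l := by
    have b1 : e' ≤ e' * l := Nat.le_mul_of_pos_right _ a4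
    have b2 : e ≤ e * l := Nat.le_mul_of_pos_right _ a4
    rw [hP, hK]
    nlinarith
  have hPK' : (P : ℝ) + 1 ≤ K * l := by exact_mod_cast hPK
  have hl1 : (1 : ℝ) ≤ l := by exact_mod_cast a4
  have hl2 : (l : ℝ) ≤ l ^ 2 := by nlinarith
  have hP0 : (0 : ℝ) < P + 1 := by positivity
  have hlr : l ≤ r * l := Nat.le_mul_of_pos_left _ hr1
  have e1 : min δ' 1 / (P + 1) ≤ min δ' 1 := div_le_self hm.le (by linarith [Nat.cast_nonneg (α := ℝ) P])
  have e2 : C' * (θ ^ 2) ^ l ≤ (min δ' 1 / (P + 1)) ^ 2 := by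
    rw [div_pow, le_div_iff₀ (by positivity)]
    refine le_trans ?_ a1.le
    calc _ ≤ C' * (θ ^ 2) ^ l * (K * l) ^ 2 := by gcongr
      _ = _ := by ring
  have e3 : c0 * (2 ^ l * A ^ l) ≤ c0 / θ ^ (r * l) := by
    rw [le_div_iff₀ (by positivity), pow_mul, mul_assoc, ← mul_pow, ← mul_pow]
    refine mul_le_of_le_one_right hc0.le (pow_le_one₀ (by positivity) ?_)
    calc 2 * A * θ ^ r ≤ 2 * A * (2 * A)⁻¹ := by gcongr
      _ = 1 := mul_inv_cancel₀ (by positivity)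
  have hAl : 1 ≤ A ^ l := one_le_pow₀ (by linarith)
  refine ⟨l, r * l, P, min δ' 1 / (P + 1), a5.trans hlr, hlr, by positivity,
    e1.trans (min_le_left _ _), ?_, e2, e2.trans ?_, ?_, le_trans ?_ e3, fun j hj => ?_⟩
  · refine le_trans ?_ (min_le_left δ' 1)
    rw [← mul_div_assoc, div_le_iff₀ hP0]
    linarith
  · rw [sq]
    exact mul_le_of_le_one_left (by positivity) (e1.trans (min_le_right _ _))
  · have b1 : A ^ (2 * (r * l + 1)) ≤ (2 ^ e) ^ (2 * (r * l + 1)) :=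
      pow_le_pow_left₀ (by linarith) he.le _
    calc Cs * (12 * A ^ (r * l + 1)) ^ 2 = 144 * Cs * A ^ (2 * (r * l + 1)) := by ring
      _ ≤ 144 * Cs * (2 ^ e) ^ (2 * (r * l + 1)) := by gcongr
      _ < 2 ^ e' * (2 ^ e) ^ (2 * (r * l + 1)) := by gcongr
      _ = 2 ^ P := by rw [hP, ← pow_mul, ← pow_add]; congr 1; ring
  · have b1 : A ≤ c0 * 2 ^ l := by nlinarith
    calc A ^ (l + 1) = A * A ^ l := by ring
      _ ≤ c0 * 2 ^ l * A ^ l := by gcongr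
      _ = _ := by ring
  · have b1 : j ≤ b * P := by
      by_contra hc
      have c1 : θ ^ j < θ ^ (b * P) := pow_lt_pow_right_of_lt_one₀ h0 h1 (not_le.1 hc)
      have c2 : θ ^ (b * P) ≤ 128⁻¹ ^ P := by
        rw [pow_mul]
        exact pow_le_pow_left₀ (by positivity) hb.le _
      have c3 := mul_lt_mul_of_pos_right (c1.trans_le c2) (show (0 : ℝ) < 128 ^ P by positivity)
      rw [← mul_pow, inv_mul_cancel₀ (by norm_num), one_pow] at c3
      exact c3.not_ge hj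
    have b2 : (j : ℝ) ≤ b * P := by exact_mod_cast b1
    have b3 : (b : ℝ) * P ≤ b * (K * l ^ 2) := by
      refine mul_le_mul_of_nonneg_left ?_ (Nat.cast_nonneg _)
      have := mul_le_mul_of_nonneg_left hl2 (Nat.cast_nonneg (α := ℝ) K)
      linarith
    calc 129 * Cb * (2 * j + 1) ≤ 129 * Cb * ((2 * b * K + 1) * l ^ 2) :=
          mul_le_mul_of_nonneg_left (by linarith) (by positivity)
      _ = 129 * Cb * (2 * b * K + 1) * l ^ 2 := by ring
      _ < c0 * 2 ^ l := a3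
      _ ≤ c0 * (2 ^ l * A ^ l) := by
          gcongr
          exact le_mul_of_one_le_right (by positivity) hAl
      _ ≤ _ := e3

end Vale.Agent.P198
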