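import Vale.Agent.P198.I.Stm

/-! Part I: quotients of two good nodes oscillate. -/

open Set Metric Topology Filter

namespace Vale.Agent.P198

variable {G Z : Type*} [Group G] [MetricSpace Z] [MulAction G Z] [CompactSpace Z]
  {D : Dyn G Z} {S : Str D} {E : Geo Z}

namespace IPair

omit [CompactSpace Z] in
theorem near {g ξ : G} {l0 : ℕ} {ε : ℝ} (hε : 0 < ε) (hq : D.C * D.q ^ l0 ≤ ε ^ 2)
    (hl : l0 ≤ D.len g) (e : D.len (g⁻¹ * ξ) = D.len ξ) : dist (D.pt g) (D.pt ξ) ≤ ε := by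
  have h1 := D.pair g ξ
  rw [e, ← mul_assoc] at h1
  have h2 := le_of_mul_le_mul_right h1 (D.qpow_pos _)
  have h3 : D.C * D.q ^ D.len g ≤ D.C * D.q ^ l0 :=
    mul_le_mul_of_nonneg_left (pow_le_pow_of_le_one D.q_pos.le D.q_lt.le hl) D.C_pos.le
  exact le_of_sq_le_sq (by linarith) hε.le

omit [CompactSpace Z] in
theorem push (c : Cst S E) {g : G} (h1 : ball (D.pt g) c.δ5 ⊆ S.Ro)
    (h2 : ball (D.pt g⁻¹) c.δ5 ⊆ S.Ro) (h3 : c.L * D.q ^ D.len g ≤ c.δ5) {P : Set Z}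
    (hP : P ⊆ S.R \ S.Ro) {x y : Z} (h : JoinedIn P x y) :
    JoinedIn (S.R ∩ ball (D.pt g) (c.L * D.q ^ D.len g)) (g • x) (g • y) := by
  refine (h.map (D.cont_smul g)).mono ?_
  rintro _ ⟨z, hz, rfl⟩
  have h4 : c.δ5 ≤ dist z (D.pt g⁻¹) := not_lt.1 fun hc => (hP hz).2 (h2 hc)
  have h5 := D.inv_le g z
  have h6 : dist (g • z) (D.pt g) * c.δ5 ≤ max (dist (g • z) (D.pt g)) (D.q ^ D.len g) *
      max (dist z (D.pt g⁻¹)) (D.q ^ D.len g) :=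
    mul_le_mul (le_max_left _ _) (h4.trans (le_max_left _ _)) c.δ5_pos.le
      (dist_nonneg.trans (le_max_left _ _))
  have h7 := mul_lt_mul_of_pos_right c.L1 (D.qpow_pos (D.len g))
  have h8 : dist (g • z) (D.pt g) < c.L * D.q ^ D.len g :=
    lt_of_mul_lt_mul_right (a := c.δ5) (by linarith) c.δ5_pos.le
  exact ⟨S.Ro_sub (h1 (h8.trans_le h3)), h8⟩

end IPair

theorem Cst.pairP (c : Cst S E) (h : c.CenP) : c.PairP := by
  intro l0 j ε α η s ξ ξ' p' hP hj hξ hξ' hp hv hl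
  set g := ξ * ξ'⁻¹ with hg
  have hη := hP.η_pos
  have hα := hP.α_ge
  have hβ := hP.β_le
  have hL : 0 ≤ c.L := by
    have h1 := c.L2
    have h2 := mul_pos D.C_pos (one_pos.trans_le E.one_le_Λ)
    nlinarith
  have hLq : ∀ i, l0 ≤ i → c.L * D.q ^ i ≤ c.δ5 := by
    intro i hi
    have h1 : c.L * D.q ^ i ≤ c.L * D.q ^ l0 :=
      mul_le_mul_of_nonneg_left (pow_le_pow_of_le_one D.q_pos.le D.q_lt.le hi) hL
    have h2 := hP.q2
    have h3 := hP.ε_le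
    have h4 := mul_pos D.C_pos (D.qpow_pos l0)
    have h5 := D.qpow_pos l0
    nlinarith
  have b1 := h j α _ s ξ (hLq j hj) hP.s_le hα (by linarith) hβ hξ
  have b2 := h j α _ s ξ' (hLq j hj) hP.s_le hα (by linarith) hβ hξ'
  obtain ⟨l1, i1, i2, -⟩ := c.mem_T.1 hξ
  obtain ⟨l2, i3, i4, -⟩ := c.mem_T.1 hξ'
  have n1 : dist (D.pt g) (D.pt ξ) ≤ ε := IPair.near hP.ε_pos hP.q1 hl (by
    rw [hg, mul_inv_rev, inv_inv, inv_mul_cancel_right, l1, l2])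
  have n2 : dist (D.pt g⁻¹) (D.pt ξ') ≤ ε := IPair.near hP.ε_pos hP.q1 (by rwa [D.len_inv]) (by
    rw [inv_inv, hg, inv_mul_cancel_right, l1, l2])
  have hb : ∀ x y : Z, dist x y ≤ ε → ball y (2 * c.δ5) ⊆ S.Ro → ball x c.δ5 ⊆ S.Ro :=
    fun x y hxy hy => (ball_subset_ball' (by linarith [hP.ε_le])).trans hy
  have r1 := hb _ _ n1 b1
  have r2 := hb _ _ n2 b2
  have hi : ∀ x y : Z, dist x y ≤ ε → c.δ / 3 - s ≤ infDist y S.Lf →
      infDist y S.Lf ≤ 2 * c.δ / 3 + s →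
      c.δ / 3 - (s + ε) ≤ infDist x S.Lf ∧ infDist x S.Lf ≤ 2 * c.δ / 3 + (s + ε) := by
    intro x y hxy h1 h2
    have h3 := infDist_le_infDist_add_dist (x := x) (y := y) (s := S.Lf)
    have h4 := infDist_le_infDist_add_dist (x := y) (y := x) (s := S.Lf)
    rw [dist_comm y x] at h4
    constructor <;> linarith
  have e0 : Cst.ht α η 0 = α + η := by simp [Cst.ht]
  have e1 : Cst.ht α η 1 = α + 4 * η := by
    simp only [Cst.ht, Fin.val_one, Nat.cast_one]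
    ring
  have e2 : Cst.ht α η 2 = α + 7 * η := by
    simp only [Cst.ht, Fin.val_two, Nat.cast_ofNat]
    ring
  have ht : ∀ l, 0 < Cst.ht α η l ∧ Cst.ht α η l < 1 := by
    intro l
    fin_cases l
    · show 0 < Cst.ht α η 0 ∧ Cst.ht α η 0 < 1
      rw [e0]
      constructor <;> linarith
    · show 0 < Cst.ht α η 1 ∧ Cst.ht α η 1 < 1
      rw [e1]
      constructor <;> linarith
    · show 0 < Cst.ht α η 2 ∧ Cst.ht α η 2 < 1
      rw [e2]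
      constructor <;> linarith
  have dich : ∀ l, (fun x => g • x) '' S.K (Cst.ht α η l) ⊆ S.Ro ∨
      ∃ x ∈ S.K (Cst.ht α η l), g • x ∈ S.R \ S.Ro := by
    intro l
    by_cases hc : ∃ x ∈ S.K (Cst.ht α η l), g • x ∈ S.R \ S.Ro
    · exact Or.inr hc
    · left
      refine ((S.K_conn _ (ht l).1 (ht l).2).image _
        (D.cont_smul g).continuousOn).subset_left_of_subset_union S.Ro_open
        S.R_cpt.isClosed.isOpen_compl (disjoint_compl_right.mono_left S.Ro_sub) ?_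
        ⟨_, ⟨p' l, hp l, rfl⟩, (hv l).1⟩
      rintro _ ⟨x, hx, rfl⟩
      by_cases h1 : g • x ∈ S.Ro
      · exact Or.inl h1
      · exact Or.inr fun h2 => hc ⟨x, hx, h2, h1⟩
  have caseA : ∀ l l' (a : ℝ), Cst.ht α η l + η ≤ a → a + η ≤ Cst.ht α η l' - η →
      (∃ x ∈ S.K (Cst.ht α η l), g • x ∈ S.R \ S.Ro) →
      (∃ x ∈ S.K (Cst.ht α η l'), g • x ∈ S.R \ S.Ro) →
      g⁻¹ ∈ c.T (D.len g) a (a + η) (s + ε) := by
    rintro l l' a h1 h2 ⟨x, hx, hx'⟩ ⟨y, hy, hy'⟩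
    have h3 := IPair.push c (g := g⁻¹) r2 (by rwa [inv_inv]) (by rw [D.len_inv]; exact hLq _ hl)
      subset_rfl (S.bd_conn.joinedIn _ hx' _ hy')
    rw [inv_smul_smul, inv_smul_smul, D.len_inv] at h3
    refine c.mem_T.2 ⟨D.len_inv g, (hi _ _ n2 i3 i4).1, (hi _ _ n2 i3 i4).2, x, y, h3, ?_, ?_⟩
    · rw [S.K_val _ (ht l).1 (ht l).2 x hx]
      linarith
    · rw [S.K_val _ (ht l').1 (ht l').2 y hy]
      linarith
  have caseB : ∀ l l' (a : ℝ), Cst.ht α η l + η ≤ a → a + η ≤ Cst.ht α η l' - η →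
      (fun x => g • x) '' S.K (Cst.ht α η l) ⊆ S.Ro →
      (fun x => g • x) '' S.K (Cst.ht α η l') ⊆ S.Ro →
      g ∈ c.T (D.len g) a (a + η) (s + ε) := by
    intro l l' a h1 h2 k1 k2
    have hc : ∀ l, (fun x => g • x) '' S.K (Cst.ht α η l) ⊆ S.Ro → ∀ x ∈ S.K (Cst.ht α η l),
        |S.v (g • x) - Cst.ht α η l| < η := by
      intro l k x hx
      rw [S.th_const _ (S.th_smul g _ (S.K_th _ (ht l).1 (ht l).2))
        ((S.K_cpt _ (ht l).1 (ht l).2).image (D.cont_smul g)) k _ ⟨x, hx, rfl⟩ _ ⟨p' l, hp l, rfl⟩]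
      exact (hv l).2
    obtain ⟨x, hx, hx'⟩ := S.K_left _ (ht l).1 (ht l).2
    obtain ⟨y, hy, hy'⟩ := S.K_left _ (ht l').1 (ht l').2
    have h3 := IPair.push c r1 r2 (hLq _ hl) S.Lf_sub (S.Lf_conn.joinedIn _ hx' _ hy')
    refine c.mem_T.2 ⟨rfl, (hi _ _ n1 i1 i2).1, (hi _ _ n1 i1 i2).2, _, _, h3, ?_, ?_⟩
    · linarith [(abs_lt.1 (hc l k1 x hx)).2]
    · linarith [(abs_lt.1 (hc l' k2 y hy)).1]
  have a0 : Cst.ht α η 0 + η ≤ α + (2 : ℕ) * η := by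
    rw [e0]
    push_cast
    linarith
  have a1 : α + (2 : ℕ) * η + η ≤ Cst.ht α η 1 - η := by
    rw [e1]
    push_cast
    linarith
  have a2 : α + (2 : ℕ) * η + η ≤ Cst.ht α η 2 - η := by
    rw [e2]
    push_cast
    linarith
  have a3 : Cst.ht α η 1 + η ≤ α + (5 : ℕ) * η := by
    rw [e1]
    push_cast
    linarith
  have a4 : α + (5 : ℕ) * η + η ≤ Cst.ht α η 2 - η := by
    rw [e2]
    push_cast
    linarith
  rcases dich 0 with c0 | c0 <;> rcases dich 1 with c1 | c1 <;> rcases dich 2 with c2 | c2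
  · exact ⟨2, by simp, Or.inl (caseB 0 1 _ a0 a1 c0 c1)⟩
  · exact ⟨2, by simp, Or.inl (caseB 0 1 _ a0 a1 c0 c1)⟩
  · exact ⟨2, by simp, Or.inl (caseB 0 2 _ a0 a2 c0 c2)⟩
  · exact ⟨5, by simp, Or.inr (caseA 1 2 _ a3 a4 c1 c2)⟩
  · exact ⟨5, by simp, Or.inl (caseB 1 2 _ a3 a4 c1 c2)⟩
  · exact ⟨2, by simp, Or.inr (caseA 0 2 _ a0 a2 c0 c2)⟩
  · exact ⟨2, by simp, Or.inr (caseA 0 1 _ a0 a1 c0 c1)⟩
  · exact ⟨2, by simp, Or.inr (caseA 0 1 _ a0 a1 c0 c1)⟩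

end Vale.Agent.P198
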