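import Vale.Agent.P198.I.Stm

/-! Part I: record levels. -/

open Set Metric Topology Filter

namespace Vale.Agent.P198

variable {G Z : Type*} [Group G] [MetricSpace Z] [MulAction G Z] [CompactSpace Z]

namespace IRec

theorem record (a : ℕ → ℝ) (ha : ∀ B, ∃ n, B < a n) (k : ℕ) :
    ∃ n, k ≤ n ∧ (k : ℝ) + 1 ≤ a n ∧ ∀ m ≤ n, a m ≤ a n := by
  classical
  obtain ⟨K, hK⟩ := ((finite_lt_nat k).image a).bddAbove
  have h := ha (max K (k + 1))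
  have h1 := Nat.find_spec h
  refine ⟨Nat.find h, ?_, ((le_max_right _ _).trans h1.le), fun m hm => ?_⟩
  · by_contra hk
    exact absurd (hK ⟨_, not_le.1 hk, rfl⟩) (not_le.2 ((le_max_left _ _).trans_lt h1))
  · rcases hm.eq_or_lt with rfl | hm
    · exact le_rfl
    · exact (not_lt.1 (Nat.find_min h hm)).trans h1.le

omit [CompactSpace Z] in
theorem pick {D : Dyn G Z} (hM : ModP D) {δ : ℝ} {T : Finset (ℂ → Z)}
    (hT : ∀ A ∈ Big Z δ, ∃ ψ ∈ T, ∃ A' ∈ Fam, ψ '' A' ⊆ A) (n : ℕ) :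
    D.Mod n (Big Z δ) ≤ ∑ ψ ∈ T, D.Mod n ((fun A => ψ '' A) '' Fam) := by
  classical
  have hne : ∀ Γ ∈ T.image fun ψ : ℂ → Z => (fun A => ψ '' A) '' Fam, ∀ A ∈ Γ, A.Nonempty := by
    intro Γ hΓ A hA
    obtain ⟨ψ, -, rfl⟩ := Finset.mem_image.1 hΓ
    obtain ⟨A', hA', rfl⟩ := hA
    obtain ⟨x, hx, -⟩ := hA'.1.left
    exact ⟨ψ x, x, hx, rfl⟩
  refine le_trans (hM.ovp n _ _ (fun A hA => ?_) fun A hA => ?_) ((hM.sub n _ hne).trans ?_)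
  · obtain ⟨Γ, hΓ, h⟩ := mem_iUnion₂.1 hA
    exact hne Γ hΓ A h
  · obtain ⟨ψ, hψ, A', hA', h⟩ := hT A hA
    exact ⟨ψ '' A', mem_iUnion₂.2 ⟨_, Finset.mem_image_of_mem _ hψ, A', hA', rfl⟩, h⟩
  · exact Finset.sum_image_le_of_nonneg fun Γ _ => hM.nonneg n Γ

end IRec

theorem recP (D : Dyn G Z) (hM : ModP D) (hA : AnnP D) (hB : BoxP Z) : RecP D := by
  intro hT
  obtain ⟨δ, C1, hδ, hC1, hA⟩ := hA
  obtain ⟨T, hT1, hT2⟩ := hB δ hδ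
  have ha : ∀ B, ∃ n, B < D.Mod n (Big Z δ) := by
    intro B
    by_contra h
    have h0 : 0 < max B 1 := lt_max_of_lt_right one_pos
    exact hT ⟨C1 * max B 1, mul_pos hC1 h0, fun n => hA n _ h0 fun m _ =>
      (not_lt.1 fun h' => h ⟨m, h'⟩).trans (le_max_left _ _)⟩
  have hne : T.Nonempty := by
    obtain ⟨n, hn⟩ := ha 0
    have h := hn.trans_le (IRec.pick hM hT2 n)
    by_contra h'
    rw [Finset.not_nonempty_iff_eq_empty.1 h', Finset.sum_empty] at h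
    exact lt_irrefl _ h
  have hc : (0 : ℝ) < T.card := by exact_mod_cast hne.card_pos
  have key : ∃ ψ ∈ T, ∀ k : ℕ, ∃ n, k ≤ n ∧ (k : ℝ) + 1 ≤ D.Mod n (Big Z δ) ∧
      (∀ m ≤ n, D.Mod m (Big Z δ) ≤ D.Mod n (Big Z δ)) ∧
      D.Mod n (Big Z δ) / T.card ≤ D.Mod n ((fun A => ψ '' A) '' Fam) := by
    by_contra h
    have h1 : ∀ ψ ∈ T, ∀ᶠ k : ℕ in atTop, ¬ ∃ n, k ≤ n ∧ (k : ℝ) + 1 ≤ D.Mod n (Big Z δ) ∧
        (∀ m ≤ n, D.Mod m (Big Z δ) ≤ D.Mod n (Big Z δ)) ∧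
        D.Mod n (Big Z δ) / T.card ≤ D.Mod n ((fun A => ψ '' A) '' Fam) := by
      intro ψ hψ
      obtain ⟨k, hk⟩ := not_forall.1 fun h' => h ⟨ψ, hψ, h'⟩
      filter_upwards [eventually_ge_atTop k] with l hl
      rintro ⟨n, a1, a2, a3, a4⟩
      have a5 : (k : ℝ) ≤ l := by exact_mod_cast hl
      exact hk ⟨n, hl.trans a1, by linarith, a3, a4⟩
    obtain ⟨k, hk⟩ := ((eventually_all_finset T).2 h1).exists
    obtain ⟨n, a1, a2, a3⟩ := IRec.record _ ha k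
    have a4 : ∑ _ψ ∈ T, D.Mod n (Big Z δ) / T.card
        ≤ ∑ ψ ∈ T, D.Mod n ((fun A => ψ '' A) '' Fam) := by
      rw [Finset.sum_const, nsmul_eq_mul, mul_div_cancel₀ _ hc.ne']
      exact IRec.pick hM hT2 n
    obtain ⟨ψ, hψ, a5⟩ := Finset.exists_le_of_sum_le hne a4
    exact hk ψ hψ ⟨n, a1, a2, a3, a5⟩
  obtain ⟨ψ, hψ, h⟩ := key
  choose n h1 h2 h3 h4 using h
  have hp : ∀ k, 0 < D.Mod (n k) (Big Z δ) := fun k => lt_of_lt_of_le (by positivity) (h2 k)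
  refine ⟨⟨ψ, hT1 ψ hψ, n, fun k => D.Mod (n k) (Big Z δ) / T.card, C1 * T.card,
    mul_pos hC1 hc, fun k => div_pos (hp k) hc, tendsto_atTop_mono h1 tendsto_id, ?_,
    fun k => ?_, h4⟩⟩
  · refine Tendsto.atTop_div_const hc (tendsto_atTop_mono (fun k => ?_)
      tendsto_natCast_atTop_atTop)
    linarith [h2 k]
  · rw [mul_assoc, mul_div_cancel₀ _ hc.ne']
    exact hA _ _ (hp k) (h3 k)

end Vale.Agent.P198
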