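import Vale.Agent.P198.I.Stm

/-! Part I: plane facts about the unit square. -/

open Set Metric Topology Filter

namespace Vale.Agent.P198

namespace IRect

theorem conv (a b c d : ℝ) : Convex ℝ (rect a b c d) :=
  (convex_halfSpace_re_ge a).inter ((convex_halfSpace_re_le b).inter
    ((convex_halfSpace_im_ge c).inter (convex_halfSpace_im_le d)))

theorem cpt (a b c d : ℝ) : IsCompact (rect a b c d) := by
  have e : rect a b c d = Icc a b ×ℂ Icc c d := by
    ext w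
    simp only [rect, mem_ofPred_eq, Complex.mem_reProdIm, mem_Icc, and_assoc]
  rw [e]
  exact Metric.isCompact_of_isClosed_isBounded (isClosed_Icc.reProdIm isClosed_Icc)
    ((isBounded_Icc a b).reProdIm (isBounded_Icc c d))

theorem pc {a b c d : ℝ} (hab : a ≤ b) (hcd : c ≤ d) : IsPathConnected (rect a b c d) :=
  (conv a b c d).isPathConnected ⟨⟨a, c⟩, le_rfl, hab, le_rfl, hcd⟩

theorem int (w : ℂ) :
    w ∈ interior (rect 0 1 0 1) ↔ 0 < w.re ∧ w.re < 1 ∧ 0 < w.im ∧ w.im < 1 := by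
  have e : rect 0 1 0 1 = Icc 0 1 ×ℂ Icc 0 1 := by
    ext w
    simp only [rect, mem_ofPred_eq, Complex.mem_reProdIm, mem_Icc, and_assoc]
  rw [e, Complex.interior_reProdIm, interior_Icc]
  simp only [Complex.mem_reProdIm, mem_Ioo, and_assoc]

theorem bd : IsPathConnected (rect 0 1 0 1 \ interior (rect 0 1 0 1)) := by
  have e : rect 0 1 0 1 \ interior (rect 0 1 0 1)
      = ((rect 0 0 0 1 ∪ rect 0 1 0 0) ∪ rect 1 1 0 1) ∪ rect 0 1 1 1 := by
    ext w
    rw [Set.mem_sdiff, int]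
    simp only [rect, mem_union, mem_ofPred_eq]
    constructor
    · rintro ⟨⟨h1, h2, h3, h4⟩, h⟩
      by_contra hn
      simp only [not_or, not_and, not_le] at hn
      obtain ⟨⟨⟨n1, n2⟩, n3⟩, n4⟩ := hn
      refine h ⟨lt_of_not_ge fun h5 => ?_, lt_of_not_ge fun h5 => ?_,
        lt_of_not_ge fun h5 => ?_, lt_of_not_ge fun h5 => ?_⟩
      · exact (n1 h1 h5 h3).not_ge h4
      · exact (n3 h5 h2 h3).not_ge h4
      · exact (n2 h1 h2 h3).not_ge h5
      · exact (n4 h1 h2 h5).not_ge h4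
    · rintro (((⟨h1, h2, h3, h4⟩ | ⟨h1, h2, h3, h4⟩) | ⟨h1, h2, h3, h4⟩) | ⟨h1, h2, h3, h4⟩) <;>
        exact ⟨⟨by linarith, by linarith, by linarith, by linarith⟩,
          fun ⟨_, _, _, _⟩ => by linarith⟩
  rw [e]
  refine (((pc le_rfl zero_le_one).union (pc zero_le_one le_rfl) ⟨0, ?_, ?_⟩).union
    (pc le_rfl zero_le_one) ⟨1, Or.inr ?_, ?_⟩).union (pc zero_le_one le_rfl)
    ⟨Complex.I, Or.inl (Or.inl ?_), ?_⟩ <;> simp [rect]

end IRect

theorem rectP : RectP where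
  cpt := IRect.cpt _ _ _ _
  conv := IRect.conv _ _ _ _
  int := IRect.int
  bd := IRect.bd
  left := ⟨IRect.cpt _ _ _ _, IRect.pc le_rfl zero_le_one⟩
  right := IRect.cpt _ _ _ _
  fam := ⟨rect 0 1 0 1, ⟨IRect.cpt _ _ _ _, IRect.pc zero_le_one zero_le_one,
    fun _ h => ⟨h.1, h.2.1⟩, ⟨0, by simp [rect], rfl⟩, ⟨1, by simp [rect], rfl⟩⟩, subset_rfl⟩

end Vale.Agent.P198
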