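import Vale.Agent.P198.I.Stm

/-! Few curves meet a small ball. -/

open Set Metric Topology Filter

namespace Vale.Agent.P198

variable {G Z : Type*} [Group G] [MetricSpace Z] [MulAction G Z]

namespace ISmall

theorem cpt (a b c d : ℝ) : IsCompact (rect a b c d) := by
  have e : rect a b c d = Icc a b ×ℂ Icc c d := by
    ext w
    simp only [rect, mem_ofPred_eq, Complex.mem_reProdIm, mem_Icc, and_assoc]
  rw [e]
  exact isCompact_Icc.reProdIm isCompact_Icc

theorem gap {ψ : ℂ → Z} (h : IsOpenEmbedding ψ) : ∃ δ : ℝ, 0 < δ ∧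
    ∀ x ∈ rect 0 1 0 1, ∀ y ∈ rect 0 1 0 1, x.re = 0 → y.re = 1 → δ ≤ dist (ψ x) (ψ y) := by
  obtain ⟨δ, h1, h2⟩ := ((cpt 0 0 0 1).prod (cpt 1 1 0 1)).exists_forall_le'
    (f := fun p : ℂ × ℂ => dist (ψ p.1) (ψ p.2)) (a := 0)
    ((h.continuous.comp continuous_fst).dist (h.continuous.comp continuous_snd)).continuousOn
    (fun p hp => dist_pos.2 fun e => by
      have e1 := h.injective e
      have h3 : p.1.re ≤ 0 := hp.1.2.1
      have h4 : 1 ≤ p.2.re := hp.2.1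
      rw [e1] at h3
      linarith)
  exact ⟨δ, h1, fun x hx y hy ex ey =>
    h2 (x, y) ⟨⟨ex.ge, ex.le, hx.2.2⟩, ⟨ey.ge, ey.le, hy.2.2⟩⟩⟩

end ISmall

open ISmall in
theorem Lim.smallP {D : Dyn G Z} (L : Lim D) : L.SmallP := by
  classical
  intro κ hκ
  obtain ⟨δ, hδ, hgap⟩ := gap L.emb
  obtain ⟨N, hN⟩ := exists_nat_gt (L.C2 / κ ^ 2)
  rw [div_lt_iff₀ (by positivity)] at hN
  obtain ⟨r, hr⟩ : ∃ r : ℝ, r = δ / (4 * 4 ^ N) := ⟨_, rfl⟩
  have hr0 : 0 < r := by rw [hr]; positivity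
  have hrN : 2 * (r * 4 ^ N) = δ / 2 := by rw [hr]; field_simp; norm_num
  refine ⟨r, hr0, fun z => ?_⟩
  have hlt : ∀ i j : ℕ, i < j → 2 * (r * 4 ^ i) < r * 4 ^ j := fun i j hij => by
    have h1 : (4 : ℝ) ^ (i + 1) ≤ 4 ^ j := pow_le_pow_right₀ (by norm_num) hij
    have h2 : 0 < r * 4 ^ i := by positivity
    have h3 := mul_le_mul_of_nonneg_left h1 hr0.le
    rw [pow_succ] at h3
    linarith
  have hinj : Function.Injective fun i : ℕ => ((z, r * 4 ^ i) : Z × ℝ) := fun i j hij => by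
    have e : r * 4 ^ i = r * 4 ^ j := congrArg Prod.snd hij
    have hi : 0 < r * 4 ^ i := by positivity
    rcases lt_trichotomy i j with h | h | h
    · linarith [hlt i j h]
    · exact h
    · linarith [hlt j i h]
  have hs := L.series ((Finset.range N).image fun i : ℕ => ((z, r * 4 ^ i) : Z × ℝ))
    {A | (L.ψ '' A ∩ ball z r).Nonempty} (fun p hp => ?_) (fun p hp p' hp' hpp => ?_)
    (fun A hA hF p hp => ?_)
  · rw [Finset.card_image_of_injective _ hinj, Finset.card_range] at hs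
    by_contra hc
    have h1 : κ ^ 2 ≤ L.m {A | (L.ψ '' A ∩ ball z r).Nonempty} ^ 2 :=
      pow_le_pow_left₀ hκ.le (not_le.1 hc).le 2
    linarith [mul_le_mul_of_nonneg_left h1 (Nat.cast_nonneg (α := ℝ) N)]
  · obtain ⟨i, -, rfl⟩ := Finset.mem_image.1 hp
    positivity
  · obtain ⟨i, -, rfl⟩ := Finset.mem_image.1 hp
    obtain ⟨j, -, rfl⟩ := Finset.mem_image.1 hp'
    refine Set.disjoint_left.2 fun y hy hy' => ?_
    have h1 : r * 4 ^ i ≤ dist y z := hy.1
    have h2 : dist y z ≤ 2 * (r * 4 ^ i) := hy.2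
    have h3 : r * 4 ^ j ≤ dist y z := hy'.1
    have h4 : dist y z ≤ 2 * (r * 4 ^ j) := hy'.2
    rcases lt_trichotomy i j with h | h | h
    · linarith [hlt i j h]
    · exact hpp (by rw [h])
    · linarith [hlt j i h]
  · obtain ⟨i, hi, rfl⟩ := Finset.mem_image.1 hp
    obtain ⟨_, ⟨a, ha, rfl⟩, hb⟩ := hA
    obtain ⟨x, hx, ex⟩ := hF.1.left
    obtain ⟨y, hy, ey⟩ := hF.1.right
    have h1 := hgap x (hF.2 hx) y (hF.2 hy) ex ey
    have h2 : r * 4 ^ i ≤ r * 4 ^ N :=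
      mul_le_mul_of_nonneg_left
        (pow_le_pow_right₀ (by norm_num) (Finset.mem_range.1 hi).le) hr0.le
    have h3 : dist (L.ψ a) z ≤ r * 4 ^ i :=
      (mem_ball.1 hb).le.trans (le_mul_of_one_le_right hr0.le (one_le_pow₀ (by norm_num)))
    have h4 := dist_triangle_right (L.ψ x) (L.ψ y) z
    rcases le_total (dist (L.ψ x) z) (dist (L.ψ y) z) with h | h
    · exact ⟨_, _, (hF.1.conn.joinedIn a ha y hy).map L.emb.continuous, h3, by
        change 2 * (r * 4 ^ i) ≤ dist (L.ψ y) z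
        linarith⟩
    · exact ⟨_, _, (hF.1.conn.joinedIn a ha x hx).map L.emb.continuous, h3, by
        change 2 * (r * 4 ^ i) ≤ dist (L.ψ x) z
        linarith⟩

end Vale.Agent.P198
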