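import Vale.Agent.P198.I.Stm

/-! Part I: one step of the chain. -/

open Set Metric Topology Filter

namespace Vale.Agent.P198

variable {G Z : Type*} [Group G] [MetricSpace Z] [MulAction G Z] [CompactSpace Z]
  {D : Dyn G Z} {S : Str D} {E : Geo Z}

namespace IStep

theorem geo {θ : ℝ} (h0 : 0 ≤ θ) (h1 : θ < 1) (l n : ℕ) :
    ∑ i ∈ Finset.Icc l n, θ ^ (n - i) ≤ (1 - θ)⁻¹ := by
  have e1 : ∑ i ∈ Finset.Icc l n, θ ^ (n - i) ≤ ∑ i ∈ Finset.range (n + 1), θ ^ (n - i) :=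
    Finset.sum_le_sum_of_subset_of_nonneg
      (fun i hi => Finset.mem_range.2 (Nat.lt_succ_of_le (Finset.mem_Icc.1 hi).2))
      fun i _ _ => pow_nonneg h0 _
  have e2 := Finset.sum_range_reflect (fun i => θ ^ i) (n + 1)
  simp only [Nat.add_sub_cancel] at e2
  rw [e2] at e1
  refine e1.trans ?_
  rw [← tsum_geometric_of_lt_one h0 h1]
  exact (summable_geometric_of_lt_one h0 h1).sum_le_tsum _ fun i _ => pow_nonneg h0 _

omit [CompactSpace Z] in
theorem big (D : Dyn G Z) (T : ℕ → ℕ → Finset G) (l0 n : ℕ) {θ Ψ : ℝ} (h0 : 0 ≤ θ) (h1 : θ < 1)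
    (hΨ : 0 ≤ Ψ) (h : ∀ r ∈ Finset.range 8, ∀ i, l0 ≤ i → θ ^ i * ((T i r).card : ℝ) ≤ Ψ) :
    ∃ Sg : Finset G, θ ^ n * (Sg.card : ℝ) ≤ 16 * (1 - θ)⁻¹ * (Ψ + D.A ^ (l0 + 1)) ∧
      (∀ g, D.len g ≤ l0 → g ∈ Sg) ∧
      ∀ g i r, l0 ≤ i → i ≤ n → r ∈ Finset.range 8 → (g ∈ T i r ∨ g⁻¹ ∈ T i r) → g ∈ Sg := by
  classical
  refine ⟨(D.fin l0).toFinset ∪ (Finset.Icc l0 n).biUnion fun i => (Finset.range 8).biUnion
    fun r => T i r ∪ (T i r).image fun g => g⁻¹, ?_, fun g hg => ?_, fun g i r a b c d => ?_⟩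
  · have e0 : (((D.fin l0).toFinset.card : ℕ) : ℝ) ≤ D.A ^ (l0 + 1) := by
      rw [← Set.ncard_eq_toFinset_card _ (D.fin l0)]
      exact D.card l0
    have e1 : ∀ i, ((Finset.range 8).biUnion fun r => T i r ∪ (T i r).image fun g => g⁻¹).card ≤
        ∑ r ∈ Finset.range 8, 2 * (T i r).card := fun i =>
      Finset.card_biUnion_le.trans (Finset.sum_le_sum fun r _ =>
        (Finset.card_union_le _ _).trans (by
          have := Finset.card_image_le (s := T i r) (f := fun g => g⁻¹)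
          omega))
    have e2 := (Finset.card_union_le (D.fin l0).toFinset ((Finset.Icc l0 n).biUnion fun i =>
      (Finset.range 8).biUnion fun r => T i r ∪ (T i r).image fun g => g⁻¹)).trans
      (Nat.add_le_add_left (Finset.card_biUnion_le.trans (Finset.sum_le_sum fun i _ => e1 i)) _)
    have e3 := (Nat.cast_le (α := ℝ)).2 e2
    push_cast at e3
    have hθ : 0 ≤ θ ^ n := pow_nonneg h0 n
    have e4 : θ ^ n * ∑ i ∈ Finset.Icc l0 n, ∑ r ∈ Finset.range 8, 2 * ((T i r).card : ℝ) ≤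
        ∑ i ∈ Finset.Icc l0 n, θ ^ (n - i) * (16 * Ψ) := by
      rw [Finset.mul_sum]
      refine Finset.sum_le_sum fun i hi => ?_
      obtain ⟨a, b⟩ := Finset.mem_Icc.1 hi
      have e5 : θ ^ n = θ ^ (n - i) * θ ^ i := by rw [← pow_add, Nat.sub_add_cancel b]
      rw [e5, mul_assoc]
      refine mul_le_mul_of_nonneg_left ?_ (pow_nonneg h0 _)
      rw [Finset.mul_sum]
      have e6 := Finset.sum_le_card_nsmul (Finset.range 8)
        (fun r => θ ^ i * (2 * ((T i r).card : ℝ))) (2 * Ψ) fun r hr => by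
          have := h r hr i a
          linarith
      rw [Finset.card_range, nsmul_eq_mul] at e6
      push_cast at e6
      linarith
    rw [← Finset.sum_mul] at e4
    have e5 := mul_le_mul_of_nonneg_right (geo h0 h1 l0 n) (by linarith : 0 ≤ 16 * Ψ)
    have e6 := mul_le_mul_of_nonneg_left e3 hθ
    have hA : 0 ≤ D.A ^ (l0 + 1) := pow_nonneg (by linarith [D.two_le_A]) _
    have e7 : θ ^ n * (((D.fin l0).toFinset.card : ℕ) : ℝ) ≤ 1 * D.A ^ (l0 + 1) :=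
      mul_le_mul (pow_le_one₀ h0 h1.le) e0 (Nat.cast_nonneg _) zero_le_one
    have e8 : 1 ≤ (1 - θ)⁻¹ := one_le_inv₀ (by linarith) |>.2 (by linarith)
    have e9 : 1 * D.A ^ (l0 + 1) ≤ 16 * (1 - θ)⁻¹ * D.A ^ (l0 + 1) :=
      mul_le_mul_of_nonneg_right (by linarith) hA
    rw [mul_add] at e6
    linarith
  · exact Finset.mem_union_left _ ((Set.Finite.mem_toFinset _).2 hg)
  · refine Finset.mem_union_right _ (Finset.mem_biUnion.2 ⟨i, Finset.mem_Icc.2 ⟨a, b⟩,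
      Finset.mem_biUnion.2 ⟨r, c, ?_⟩⟩)
    rcases d with d | d
    · exact Finset.mem_union_left _ d
    · exact Finset.mem_union_right _ (Finset.mem_image.2 ⟨g⁻¹, d, inv_inv g⟩)

end IStep

open IStep

theorem Cst.stepP (c : Cst S E) (hB : c.BadP) (hN : c.NearP) (hP : c.PairP) (hE : EnP D)
    (hT : NetP G Z) : c.StepP := by
  classical
  obtain ⟨c1, hc1, hB⟩ := hB
  obtain ⟨N, hE⟩ := hE
  have hq := D.q_pos
  have h0 : 0 ≤ √D.q := Real.sqrt_nonneg _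
  have h1 : √D.q < 1 := (Real.sqrt_lt' one_pos).2 (by simpa using D.q_lt)
  have hsq : D.q = √D.q * √D.q := (Real.mul_self_sqrt hq.le).symm
  have hi : 0 < (1 - √D.q)⁻¹ := inv_pos.2 (by linarith)
  refine ⟨16 / c1, by positivity, fun k => ?_⟩
  obtain ⟨ε', hε', hN⟩ := hN k
  obtain ⟨F, hT⟩ := hT ε' hε'
  refine ⟨4 * F ^ 2 * N * (16 * (1 - √D.q)⁻¹) + 1, by positivity, ?_⟩
  intro l0 j ε α η s Ψ hpar hj hΨ hch
  obtain ⟨θ, hθ⟩ : ∃ θ, θ = √D.q := ⟨_, rfl⟩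
  rw [← hθ] at h0 h1 hsq hi hch ⊢
  have hsplit := Finset.card_filter_add_card_filter_not (s := c.T j α (α + 8 * η) s)
    (fun ξ => ∃ p, c.Good k j α η ξ p)
  obtain ⟨Y, hY⟩ : ∃ Y, Y = (c.T j α (α + 8 * η) s).filter fun ξ => ∃ p, c.Good k j α η ξ p :=
    ⟨_, rfl⟩
  obtain ⟨W, hW⟩ : ∃ W, W = (c.T j α (α + 8 * η) s).filter fun ξ => ¬ ∃ p, c.Good k j α η ξ p :=
    ⟨_, rfl⟩
  rw [← hY, ← hW] at hsplit
  have hθj : 0 ≤ θ ^ j := pow_nonneg h0 j
  rcases le_total Y.card W.card with hle | hle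
  · left
    have e1 := hB k l0 j ε α η s W hpar hj (hW ▸ Finset.filter_subset _ _)
      fun ξ hξ => by
        rw [hW] at hξ
        exact (Finset.mem_filter.1 hξ).2
    have e2 : ((c.T j α (α + 8 * η) s).card : ℝ) ≤ 2 * W.card := by
      have : (c.T j α (α + 8 * η) s).card ≤ 2 * W.card := by omega
      exact_mod_cast this
    have e3 := Finset.sum_le_card_nsmul (Finset.range 8)
      (fun r : ℕ => θ ^ (j + k) * ((c.T (j + k) (α + r * η) (α + r * η + η) (s + ε)).card : ℝ)) Ψ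
      fun r hr => hch r hr (j + k) (by omega)
    rw [Finset.card_range, nsmul_eq_mul, ← Finset.mul_sum] at e3
    push_cast at e3
    have e4 := mul_le_mul_of_nonneg_left e1 hθj
    have e5 := mul_le_mul_of_nonneg_left e3 (pow_nonneg h0 k)
    have e6 : θ ^ j * (c1 * W.card) ≤ θ ^ k * (8 * Ψ) := by
      refine e4.trans (le_trans (le_of_eq ?_) e5)
      rw [hsq, mul_pow, pow_add]; ring
    have e7 := mul_le_mul_of_nonneg_left e2 hθj
    rw [div_mul_eq_mul_div, div_mul_eq_mul_div, le_div_iff₀ hc1]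
    have e8 := mul_le_mul_of_nonneg_right e7 hc1.le
    linarith
  · right
    have hne := D.ne
    have hYT : ∀ ξ ∈ Y, ξ ∈ c.T j α (α + 8 * η) s := fun ξ hξ => (Finset.mem_filter.1 (hY ▸ hξ)).1
    choose! p hp using fun ξ (hξ : ξ ∈ Y) => (Finset.mem_filter.1 (hY ▸ hξ)).2
    obtain ⟨Y', hY1, hY2, hY3⟩ := hT Y fun ξ l => ξ⁻¹ • p ξ l
    obtain ⟨Sg, s1, s2, s3⟩ := big D
      (fun i r => c.T i (α + r * η) (α + r * η + η) (s + ε)) l0 (2 * j) h0 h1 hΨ hch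
    have hlen : ∀ ξ ∈ Y', D.len ξ = j := fun ξ hξ => (c.mem_T.1 (hYT ξ (hY1 hξ))).1
    have e1 := hE j Y' Sg hlen fun ξ hξ ξ' hξ' => by
      rcases le_total (D.len (ξ * ξ'⁻¹)) l0 with hl | hl
      · exact s2 _ hl
      · obtain ⟨r, hr, h⟩ := hP l0 j ε α η s ξ ξ' (p ξ') hpar hj (hYT ξ (hY1 hξ))
          (hYT ξ' (hY1 hξ')) (fun l => (hp ξ' (hY1 hξ') l).1)
          (fun l => hN l0 j ε α η s ξ (p ξ) l _ hpar hj (hYT ξ (hY1 hξ)) (hp ξ (hY1 hξ)) (by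
            rw [smul_smul, inv_mul_cancel_left]
            exact hY3 ξ' hξ' ξ hξ l)) hl
        refine s3 _ _ r hl ?_ hr h
        have h2 := D.len_mul ξ ξ'⁻¹
        rw [D.len_inv, hlen ξ hξ, hlen ξ' hξ'] at h2
        omega
    have e2 : ((c.T j α (α + 8 * η) s).card : ℝ) ≤ 2 * F * Y'.card := by
      have : (c.T j α (α + 8 * η) s).card ≤ 2 * (F * Y'.card) := by omega
      rw [mul_assoc]
      exact_mod_cast this
    have e3 := pow_le_pow_left₀ (Nat.cast_nonneg _) e2 2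
    have hA : 0 ≤ D.A ^ (l0 + 1) := pow_nonneg (by linarith [D.two_le_A]) _
    have hθ2 : 0 ≤ θ ^ (2 * j) := pow_nonneg h0 _
    calc (θ ^ j * ((c.T j α (α + 8 * η) s).card : ℝ)) ^ 2
        = θ ^ (2 * j) * ((c.T j α (α + 8 * η) s).card : ℝ) ^ 2 := by ring
      _ ≤ θ ^ (2 * j) * (2 * F * Y'.card) ^ 2 := mul_le_mul_of_nonneg_left e3 hθ2
      _ = θ ^ (2 * j) * (4 * F ^ 2) * (Y'.card : ℝ) ^ 2 := by ring
      _ ≤ θ ^ (2 * j) * (4 * F ^ 2) * (N * (2 * j + 1) * Sg.card) :=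
          mul_le_mul_of_nonneg_left e1 (by positivity)
      _ = 4 * F ^ 2 * N * (2 * j + 1) * (θ ^ (2 * j) * Sg.card) := by ring
      _ ≤ 4 * F ^ 2 * N * (2 * j + 1) * (16 * (1 - θ)⁻¹ * (Ψ + D.A ^ (l0 + 1))) :=
          mul_le_mul_of_nonneg_left s1 (by positivity)
      _ = 4 * F ^ 2 * N * (16 * (1 - θ)⁻¹) * ((2 * j + 1) * (Ψ + D.A ^ (l0 + 1))) := by ring
      _ ≤ (4 * F ^ 2 * N * (16 * (1 - θ)⁻¹) + 1) * ((2 * j + 1) * (Ψ + D.A ^ (l0 + 1))) :=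
          mul_le_mul_of_nonneg_right (by linarith) (by positivity)
      _ = _ := by ring

end Vale.Agent.P198
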