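import Vale.Agent.P198.I.Stm

/-! Part I: the structure on the image of the unit square. -/

open Set Metric Topology Filter

namespace Vale.Agent.P198

variable {G Z : Type*} [Group G] [MetricSpace Z] [MulAction G Z] [CompactSpace Z] {D : Dyn G Z}

namespace IStr

omit [CompactSpace Z] in
theorem pull {ψ : ℂ → Z} (h : IsOpenEmbedding ψ) {Q : Set ℂ} {P : Set Z} (hP : P ⊆ ψ '' Q) {x y : Z}
    (hj : JoinedIn P x y) : ∃ a b, ψ a = x ∧ ψ b = y ∧ JoinedIn (Q ∩ ψ ⁻¹' P) a b := by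
  obtain ⟨a, ha, rfl⟩ := hP hj.source_mem
  obtain ⟨b, hb, rfl⟩ := hP hj.target_mem
  refine ⟨a, b, rfl, rfl, (h.isInducing.joinedIn_image (F := Q ∩ ψ ⁻¹' P) ⟨ha, hj.source_mem⟩
    ⟨hb, hj.target_mem⟩).1 ?_⟩
  rwa [image_inter_preimage, inter_eq_right.2 hP]

omit [CompactSpace Z] in
theorem cont {ψ : ℂ → Z} (h : IsOpenEmbedding ψ) {Q : Set ℂ} {v : ℂ → ℝ} (hv : ContinuousOn v Q) :
    ContinuousOn (fun z => v (Function.invFun ψ z)) (ψ '' Q) := by
  rintro _ ⟨a, ha, rfl⟩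
  have e : ∀ w, Function.invFun ψ (ψ w) = w := Function.leftInverse_invFun h.injective
  have h1 : 𝓝[ψ '' Q] ψ a = map ψ (𝓝[Q] a) := (h.isInducing.map_nhdsWithin_eq Q a).symm
  rw [ContinuousWithinAt, h1, tendsto_map'_iff, e]
  simpa only [Function.comp_def, e] using (hv a ha).tendsto

end IStr

open IStr in
omit [CompactSpace Z] in
theorem strP (D : Dyn G Z) (hR : RectP) : StrP D := by
  intro L hV hLine hVal hB hT
  classical
  have hc := L.emb.continuous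
  have hi := L.emb.injective
  have e : ∀ w, Function.invFun L.ψ (L.ψ w) = w := Function.leftInverse_invFun hi
  choose! K hK using hLine
  have hl : rect 0 0 0 1 ⊆ rect 0 1 0 1 \ interior (rect 0 1 0 1) := fun w ⟨h1, h2, h3, h4⟩ =>
    ⟨⟨h1, by linarith, h3, h4⟩, fun h => by linarith [((hR.int w).1 h).1]⟩
  have hr : rect 1 1 0 1 ⊆ rect 0 1 0 1 \ interior (rect 0 1 0 1) := fun w ⟨h1, h2, h3, h4⟩ =>
    ⟨⟨by linarith, h2, h3, h4⟩, fun h => by linarith [((hR.int w).1 h).2.1]⟩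
  refine ⟨{
    R := L.ψ '' rect 0 1 0 1
    Ro := L.ψ '' interior (rect 0 1 0 1)
    Lf := L.ψ '' rect 0 0 0 1
    Rt := L.ψ '' rect 1 1 0 1
    v := fun z => L.v (Function.invFun L.ψ z)
    K := fun t => L.ψ '' K t
    Th := L.Th
    R_cpt := hR.cpt.image hc
    Ro_open := L.emb.isOpenMap _ isOpen_interior
    Ro_sub := image_mono interior_subset
    bd_conn := by rw [← image_diff hi]; exact hR.bd.image hc
    Lf_sub := by rw [← image_diff hi]; exact image_mono hl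
    Rt_sub := by rw [← image_diff hi]; exact image_mono hr
    Lf_cpt := hR.left.1.image hc
    Rt_cpt := hR.right.image hc
    Lf_conn := hR.left.2.image hc
    disj := (disjoint_image_iff hi).2 (disjoint_left.2 fun w h1 h2 => by linarith [h1.2.1, h2.1])
    v_cont := cont L.emb hV.cont
    bd := ?_
    th_smul := hT.smul
    th_const := ?_
    K_th := fun t h0 h1 => hT.line t _ (hK t h0 h1)
    K_cpt := fun t h0 h1 => (hK t h0 h1).cpt.image hc
    K_conn := fun t h0 h1 => (hK t h0 h1).conn.image _ hc.continuousOn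
    K_sub := fun t h0 h1 => image_mono (hK t h0 h1).sub
    K_left := ?_
    K_right := ?_
    K_val := ?_
    K_meet := ?_
    bott := ?_ }⟩
  · rw [← image_diff hi]
    rintro _ ⟨w, ⟨hw, hw'⟩, rfl⟩
    obtain ⟨h1, h2, h3, h4⟩ := id hw
    rw [hR.int] at hw'
    simp only [e]
    rcases h1.eq_or_lt with h1 | h1
    · exact Or.inl ⟨w, ⟨h1.le, h1.ge, h3, h4⟩, rfl⟩
    rcases h2.eq_or_lt with h2 | h2
    · exact Or.inr (Or.inl ⟨w, ⟨h2.ge, h2.le, h3, h4⟩, rfl⟩)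
    rcases h3.eq_or_lt with h3 | h3
    · exact Or.inr (Or.inr (Or.inl (hV.bot w hw h3.symm)))
    rcases h4.eq_or_lt with h4 | h4
    · exact Or.inr (Or.inr (Or.inr (hV.top w hw h4)))
    exact absurd ⟨h1, h2, h3, h4⟩ hw'
  · intro S h1 h2 h3 x hx y hy
    obtain ⟨a, -, rfl⟩ := h3 hx
    obtain ⟨b, -, rfl⟩ := h3 hy
    simp only [e]
    exact hT.const S h1 h2 h3 a b hx hy
  · intro t h0 h1
    obtain ⟨x, hx, h2⟩ := (hK t h0 h1).left
    obtain ⟨-, -, h3, h4⟩ := (hK t h0 h1).sub hx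
    exact ⟨L.ψ x, mem_image_of_mem _ hx, mem_image_of_mem _ ⟨h2.ge, h2.le, h3, h4⟩⟩
  · intro t h0 h1
    obtain ⟨x, hx, h2⟩ := (hK t h0 h1).right
    obtain ⟨-, -, h3, h4⟩ := (hK t h0 h1).sub hx
    exact ⟨L.ψ x, mem_image_of_mem _ hx, mem_image_of_mem _ ⟨h2.ge, h2.le, h3, h4⟩⟩
  · rintro t h0 h1 _ ⟨x, hx, rfl⟩
    simp only [e]
    exact hVal t _ h0 h1 (hK t h0 h1) x hx
  · intro t h0 h1 P x y hP hj hx hy
    obtain ⟨a, b, rfl, rfl, hj'⟩ := pull L.emb hP hj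
    simp only [e] at hx hy
    obtain ⟨w, hw, -, hw'⟩ := (hK t h0 h1).meet _ a b inter_subset_left hj' hx hy
    exact ⟨L.ψ w, mem_image_of_mem _ hw, hw'⟩
  · intro R
    obtain ⟨Cs, h0, h⟩ := hB R
    refine ⟨Cs, h0, fun j α β T h1 h2 h3 h4 => h j α β T h1 h2 h3 fun g hg => ?_⟩
    obtain ⟨h5, x, y, hj, hx, hy⟩ := h4 g hg
    obtain ⟨a, b, rfl, rfl, hj'⟩ := pull L.emb inter_subset_left hj
    simp only [e] at hx hy
    exact ⟨h5, a, b, hj'.mono fun w hw => ⟨hw.1, hw.2.2⟩, hx, hy⟩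

end Vale.Agent.P198
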