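import Vale.Agent.P198.I.Stm

/-! Properties of thick sets. -/

open Set Metric Topology Filter

namespace Vale.Agent.P198

variable {G Z : Type*} [Group G] [MetricSpace Z] [MulAction G Z] [CompactSpace Z] {D : Dyn G Z}

namespace ITh

theorem rect_cpt : IsCompact (rect 0 1 0 1) := by
  have e : rect 0 1 0 1 = Icc (0 : ℝ) 1 ×ℂ Icc (0 : ℝ) 1 := by
    ext w
    simp only [rect, mem_ofPred_eq, Complex.mem_reProdIm, mem_Icc, and_assoc]
  rw [e]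
  exact isCompact_Icc.reProdIm isCompact_Icc

end ITh

omit [CompactSpace Z] in
theorem Lim.thP' (L : Lim D) (hC : L.ConstP) : L.ThP := by
  have cψ : Continuous L.ψ := L.emb.continuous
  refine ⟨fun g K hK ε hε => ?_, fun t K hK ε hε => ?_, fun K hK hc hsub x y hx hy => ?_⟩
  · obtain ⟨M, hM, hl⟩ := D.lip g
    have key : ∀ x y : Z, dist x y < ε / M → dist (g • x) (g • y) < ε := fun x y h =>
      (hl x y).trans_lt (by rwa [lt_div_iff₀' hM] at h)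
    refine L.tf_mono _ _ (fun A hA => hA.1.nonempty) ?_
      (L.tf_smul g _ (fun A hA => hA.1.nonempty) (hK (ε / M) (div_pos hε hM)))
    rintro _ ⟨B, ⟨h1, h2, h3⟩, rfl⟩
    refine ⟨h1.image (D.cont_smul g), ?_, ?_⟩
    · rintro _ ⟨x, hx, rfl⟩
      obtain ⟨y, hy, hd⟩ := h2 x hx
      exact ⟨_, ⟨y, hy, rfl⟩, key x y hd⟩
    · rintro _ ⟨y, hy, rfl⟩
      obtain ⟨x, hx, hd⟩ := h3 y hy
      exact ⟨_, ⟨x, hx, rfl⟩, key x y hd⟩
  · obtain ⟨δ, hδ, hu⟩ := Metric.uniformContinuousOn_iff.1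
      (ITh.rect_cpt.uniformContinuousOn_of_continuous cψ.continuousOn) ε hε
    have hp := hK.pos δ hδ
    rw [← L.m_inter] at hp
    refine L.tf_mono _ _ (fun A hA => hA.1.nonempty) ?_ (L.tf_pos _ inter_subset_right hp)
    rintro _ ⟨A, ⟨⟨h2, h3⟩, hA⟩, rfl⟩
    refine ⟨hA.1.conn.image cψ, ?_, ?_⟩
    · rintro _ ⟨x, hx, rfl⟩
      obtain ⟨y, hy, hd⟩ := h2 x hx
      exact ⟨_, ⟨y, hy, rfl⟩, hu x (hA.2 hx) y (hK.sub hy) hd⟩
    · rintro _ ⟨y, hy, rfl⟩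
      obtain ⟨x, hx, hd⟩ := h3 y hy
      exact ⟨_, ⟨x, hx, rfl⟩, hu x (hA.2 hx) y (hK.sub hy) hd⟩
  · have hin : ∀ w : ℂ, L.ψ w ∈ L.ψ '' interior (rect 0 1 0 1) → w ∈ rect 0 1 0 1 := fun w hw =>
      interior_subset (L.emb.injective.mem_set_image.1 hw)
    refine hC x (hin x (hsub hx)) y (hin y (hsub hy)) fun ε hε => ?_
    obtain ⟨δ0, hδ0, h0⟩ := hc.exists_thickening_subset_open
      (L.emb.isOpenMap _ isOpen_interior) hsub
    obtain ⟨δ1, hδ1, h1⟩ := Metric.isOpen_iff.1 (L.emb.isOpenMap _ (isOpen_ball (x := x) (ε := ε)))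
      _ ⟨x, mem_ball_self hε, rfl⟩
    obtain ⟨δ2, hδ2, h2⟩ := Metric.isOpen_iff.1 (L.emb.isOpenMap _ (isOpen_ball (x := y) (ε := ε)))
      _ ⟨y, mem_ball_self hε, rfl⟩
    refine ⟨_, hK (min δ0 (min δ1 δ2)) (lt_min hδ0 (lt_min hδ1 hδ2)), ?_⟩
    rintro B ⟨b1, b2, b3⟩
    have hB : B ⊆ L.ψ '' interior (rect 0 1 0 1) := fun w hw => by
      obtain ⟨z, hz, hd⟩ := b2 w hw
      exact h0 (mem_thickening_iff.2 ⟨z, hz, hd.trans_le (min_le_left _ _)⟩)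
    have he : L.ψ '' (L.ψ ⁻¹' B) = B :=
      image_preimage_eq_of_subset (hB.trans (image_subset_range _ _))
    obtain ⟨x1, hx1, dx1⟩ := b3 _ hx
    obtain ⟨y1, hy1, dy1⟩ := b3 _ hy
    obtain ⟨x', hx', rfl⟩ := h1 (dx1.trans_le ((min_le_right _ _).trans (min_le_left _ _)))
    obtain ⟨y', hy', rfl⟩ := h2 (dy1.trans_le ((min_le_right _ _).trans (min_le_right _ _)))
    refine ⟨L.ψ ⁻¹' B, fun w hw => ?_, he.subset, x', y', ?_, hx', hy'⟩
    · exact ⟨(hin w (hB hw)).1, (hin w (hB hw)).2.1⟩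
    · rw [← L.emb.isInducing.joinedIn_image hx1 hy1, he]
      exact b1.joinedIn _ hx1 _ hy1

theorem Lim.thP (L : Lim D) (hC : L.ConstP) : L.ThP := L.thP' hC

end Vale.Agent.P198
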