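import Vale.Agent.P198.I.Stm

/-! Part I: the height function. -/

open Set Metric Topology Filter

namespace Vale.Agent.P198

variable {G Z : Type*} [Group G] [MetricSpace Z] [MulAction G Z] [CompactSpace Z] {D : Dyn G Z}

namespace IVP

theorem rect_cpt : IsCompact (rect 0 1 0 1) := by
  have e : rect 0 1 0 1 = Icc (0 : ℝ) 1 ×ℂ Icc (0 : ℝ) 1 := by
    ext w
    simp only [rect, mem_ofPred_eq, Complex.mem_reProdIm, mem_Icc, and_assoc]
  rw [e]
  exact isCompact_Icc.reProdIm isCompact_Icc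

theorem strip_conv : Convex ℝ (strip 0 1) := by
  have e : strip 0 1 = Complex.reLm ⁻¹' Icc (0 : ℝ) 1 := rfl
  rw [e]
  exact (convex_Icc 0 1).linear_preimage _

omit [CompactSpace Z] in
theorem osc1 (L : Lim D) {P : Set ℂ} {x y : ℂ} (hP : P ⊆ strip 0 1) (h : JoinedIn P x y) :
    L.v y ≤ L.v x + L.m {A | (A ∩ P).Nonempty} := by
  refine le_trans (L.m_mono ?_) (L.m_union _ _)
  intro A hA
  by_cases hc : (A ∩ P).Nonempty
  · exact Or.inr hc
  · refine Or.inl (up_join (h.mono fun z hz => ⟨hP hz, fun hz' => hc ⟨z, hz', hz⟩⟩) hA)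

omit [CompactSpace Z] in
theorem osc (L : Lim D) (P : Set ℂ) (x y : ℂ) (hP : P ⊆ strip 0 1) (h : JoinedIn P x y) :
    |L.v x - L.v y| ≤ L.m {A | (A ∩ P).Nonempty} := by
  have h1 := osc1 L hP h
  have h2 := osc1 L hP h.symm
  rw [abs_le]
  constructor <;> linarith

omit [CompactSpace Z] in
theorem small (L : Lim D) (hS : L.SmallP) (κ : ℝ) (hκ : 0 < κ) : ∃ r : ℝ, 0 < r ∧
    ∀ w ∈ rect 0 1 0 1, L.m {A | (A ∩ ball w r).Nonempty} ≤ κ := by
  obtain ⟨r0, h0, h⟩ := hS κ hκ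
  have hu := rect_cpt.uniformContinuousOn_of_continuous L.emb.continuous.continuousOn
  obtain ⟨r, hr, hu⟩ := Metric.uniformContinuousOn_iff.1 hu r0 h0
  refine ⟨r, hr, fun w hw => le_trans (L.m_mono' ?_) (h (L.ψ w))⟩
  rintro A hA ⟨a, ha, hb⟩
  exact ⟨L.ψ a, ⟨a, ha, rfl⟩, hu a (hA.2 ha) w hw hb⟩

omit [CompactSpace Z] in
theorem loc (L : Lim D) (hS : L.SmallP) (κ : ℝ) (hκ : 0 < κ) : ∃ r : ℝ, 0 < r ∧
    ∀ w ∈ rect 0 1 0 1, ∀ w' ∈ strip 0 1, dist w' w < r → |L.v w' - L.v w| ≤ κ := by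
  obtain ⟨r, hr, h⟩ := small L hS κ hκ
  refine ⟨r, hr, fun w hw w' hw' hd => ?_⟩
  have hw0 : w ∈ strip 0 1 ∩ ball w r := ⟨⟨hw.1, hw.2.1⟩, mem_ball_self hr⟩
  have hc : IsPathConnected (strip 0 1 ∩ ball w r) :=
    (strip_conv.inter (convex_ball w r)).isPathConnected ⟨w, hw0⟩
  refine (osc L _ w' w inter_subset_left (hc.joinedIn w' ⟨hw', hd⟩ w hw0)).trans
    (le_trans (L.m_mono ?_) (h w hw))
  rintro A ⟨a, ha, hb⟩
  exact ⟨a, ha, hb.2⟩

theorem shift (w : ℂ) (hw : w ∈ rect 0 1 0 1) (t : ℝ) :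
    w + t * Complex.I ∈ strip 0 1 ∧ dist (w + t * Complex.I) w = |t| ∧
      (w + t * Complex.I).im = w.im + t := by
  refine ⟨?_, ?_, by simp⟩
  · have e : (w + t * Complex.I).re = w.re := by simp
    exact ⟨e ▸ hw.1, e ▸ hw.2.1⟩
  · simp [dist_eq_norm]

end IVP

theorem Lim.vP (L : Lim D) (hU : UpP) (hS : L.SmallP) : L.VP := by
  refine ⟨IVP.osc L, IVP.small L hS, ?_, fun w hw h0 => ?_, fun w hw h1 => ?_⟩
  · refine Metric.continuousOn_iff.2 fun w hw ε hε => ?_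
    obtain ⟨r, hr, h⟩ := IVP.loc L hS (ε / 2) (by linarith)
    refine ⟨r, hr, fun w' hw' hd => ?_⟩
    rw [Real.dist_eq]
    linarith [h w hw w' ⟨hw'.1, hw'.2.1⟩ hd]
  · refine le_antisymm (le_of_forall_pos_le_add fun κ hκ => ?_) (L.m_nonneg _)
    obtain ⟨r, hr, h⟩ := IVP.loc L hS κ hκ
    obtain ⟨s1, s2, s3⟩ := IVP.shift w hw (-(r / 2))
    have h2 := h w hw _ s1 (by rw [s2, abs_neg, abs_of_pos (by linarith)]; linarith)
    have h3 : L.v (w + (-(r / 2) : ℝ) * Complex.I) ≤ L.m ∅ := L.m_mono' fun A hA hA' =>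
      hU.bot 0 1 A _ hA.1 (fun z hz => by
        have := (hA.2 hz).2.2.1
        rw [s3, h0]
        linarith) hA'
    rw [L.m_empty] at h3
    linarith [(abs_le.1 h2).1]
  · refine le_antisymm (L.m_le_one _) (le_of_forall_pos_le_add fun κ hκ => ?_)
    obtain ⟨r, hr, h⟩ := IVP.loc L hS κ hκ
    obtain ⟨s1, s2, s3⟩ := IVP.shift w hw (r / 2)
    have h2 := h w hw _ s1 (by rw [s2, abs_of_pos (by linarith)]; linarith)
    have h3 : L.m Fam ≤ L.v (w + (r / 2 : ℝ) * Complex.I) := L.m_mono fun A hA =>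
      up_top s1 fun z hz => by
        have := (hA.2 hz).2.2.2
        rw [s3, h1]
        linarith
    rw [L.m_fam] at h3
    linarith [(abs_le.1 h2).2]

end Vale.Agent.P198
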