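import Vale.Agent.P198.I.Stm

/-! Part I: the height on a level line. -/

open Set Metric Topology Filter

namespace Vale.Agent.P198

variable {G Z : Type*} [Group G] [MetricSpace Z] [MulAction G Z] [CompactSpace Z] {D : Dyn G Z}

namespace IVal

theorem joined : JoinedIn (rect 0 1 0 1) 0 Complex.I := by
  refine JoinedIn.ofLine (f := fun s : ℝ => (s : ℂ) * Complex.I) (by fun_prop) (by simp) (by simp) ?_
  rintro _ ⟨s, hs, rfl⟩
  simpa [rect] using hs

end IVal

omit [CompactSpace Z] in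
theorem Lim.valP (L : Lim D) (hV : L.VP) (hC : L.ConstP) (hP : PathP ℂ) : L.ValP := by
  intro t K h0 h1 hK x hx
  have hc : ∀ y ∈ K, L.v x = L.v y := fun y hy =>
    hC x (hK.sub hx) y (hK.sub hy) fun ε hε =>
      ⟨_, L.tf_pos _ inter_subset_right ((hK.pos ε hε).trans_eq (L.m_inter _).symm), by
        rintro _ ⟨A, ⟨hA, hF⟩, rfl⟩
        obtain ⟨x', hx', ex⟩ := hA.2 x hx
        obtain ⟨y', hy', ey⟩ := hA.2 y hy
        exact ⟨A, hF.1.sub, subset_rfl, x', y', hF.1.conn.joinedIn _ hx' _ hy', ex, ey⟩⟩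
  have key : ∀ e, 0 < e → e ≤ t → e ≤ 1 - t → t - e ≤ L.v x ∧ L.v x ≤ t + e := by
    intro e e0 e1 e2
    have b0 := hV.bot 0 IVal.joined.source_mem rfl
    have b1 := hV.top _ IVal.joined.target_mem rfl
    obtain ⟨x', y', hj, ex, ey⟩ := hP.band _ L.v _ _ (t - e) (t + e) IVal.joined hV.cont
      (by linarith) (by linarith) (by linarith)
    obtain ⟨z, hz, -, hb⟩ := hK.meet _ x' y' inter_subset_left hj (by linarith) (by linarith)
    rw [hc z hz]
    exact hb
  by_contra hne
  have hp : 0 < |L.v x - t| := abs_pos.2 (sub_ne_zero.2 hne)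
  have h := key (min (|L.v x - t| / 2) (min t (1 - t))) (lt_min (by linarith) (lt_min h0 (by linarith)))
    ((min_le_right _ _).trans (min_le_left _ _)) ((min_le_right _ _).trans (min_le_right _ _))
  have h2 := min_le_left (|L.v x - t| / 2) (min t (1 - t))
  have h3 : |L.v x - t| ≤ |L.v x - t| / 2 := abs_le.2 ⟨by linarith [h.1], by linarith [h.2]⟩
  linarith

end Vale.Agent.P198
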