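import Vale.Agent.P198.L.All
import Vale.Agent.P198.I.Box
import Vale.Agent.P198.I.Rec
import Vale.Agent.P198.I.Lim
import Vale.Agent.P198.I.Small
import Vale.Agent.P198.I.VP
import Vale.Agent.P198.I.Fin
import Vale.Agent.P198.I.Const
import Vale.Agent.P198.I.Line
import Vale.Agent.P198.I.Val
import Vale.Agent.P198.I.Bott
import Vale.Agent.P198.I.Th
import Vale.Agent.P198.I.Rect
import Vale.Agent.P198.I.Str
import Vale.Agent.P198.I.Cst
import Vale.Agent.P198.I.Init
import Vale.Agent.P198.I.Bad
import Vale.Agent.P198.I.Near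
import Vale.Agent.P198.I.Pair
import Vale.Agent.P198.I.Step
import Vale.Agent.P198.I.En
import Vale.Agent.P198.I.Chain
import Vale.Agent.P198.I.Num
import Vale.Agent.P198.I.Final

/-! Part I: the combinatorial moduli of annuli are bounded. -/

open Set Metric Topology Filter

namespace Vale.Agent.P198

variable {G Z : Type*} [Group G] [MetricSpace Z] [MulAction G Z] [CompactSpace Z]

theorem partI (D : Dyn G Z) : D.Tst := by
  by_contra hT
  obtain ⟨E⟩ := geo D
  obtain ⟨L⟩ := limP D (modP D) (flowP' D _) (invP' D) (serP D)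
    (recP D (modP D) (annP' D) (boxP D (pathP ℂ)) hT)
  have hV := L.vP upP' L.smallP
  have hF := L.finP upP'
  have hC := L.constP hV
  obtain ⟨S⟩ := strP D rectP L hV (L.lineP hF (pathP ℂ)) (L.valP hV hC (pathP ℂ))
    (L.bottP hF (sumP G G)) (L.thP hC)
  obtain ⟨c⟩ := cstP S E
  have hc := c.cenP (pathP Z)
  exact finalP c chainP numP (c.initP (sumP G G))
    (c.stepP (c.badP (sumP G G)) (c.nearP hc) (c.pairP hc) (enP D) (netP G Z))

end Vale.Agent.P198
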