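import Vale.Agent.P198.I.Stm

/-! Part I: the images of the marked points have nearly the right height. -/

open Set Metric Topology Filter

namespace Vale.Agent.P198

variable {G Z : Type*} [Group G] [MetricSpace Z] [MulAction G Z] [CompactSpace Z]
  {D : Dyn G Z} {S : Str D} {E : Geo Z}

namespace INear

theorem alg {d Q C e L Λ r t m1 m2 : ℝ} (hd : 0 ≤ d) (hQ : 0 < Q) (hC : 1 ≤ C) (hL : 1 ≤ L)
    (hΛ : 1 ≤ Λ) (hr : 0 < r) (hr1 : r ≤ 1) (he : e = r / (4 * Λ * C * L ^ 2)) (ht0 : 0 ≤ t)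
    (ht : t < e) (h10 : 0 ≤ m1) (h1 : m1 ≤ d + L * Q) (h20 : 0 ≤ m2) (h2 : m2 ≤ L * Q)
    (h : d * Q ≤ C * (t * (m1 * m2))) : Λ * d < Q * r := by
  have a1 : d * Q ≤ C * (e * ((d + L * Q) * (L * Q))) := by
    have he0 : 0 ≤ e := ht0.trans ht.le
    refine h.trans ?_
    gcongr
  have a2 : C * (e * ((d + L * Q) * (L * Q))) = (r / (4 * Λ * L) * d + r * Q / (4 * Λ)) * Q := by
    rw [he]
    field_simp
  rw [a2] at a1
  have a3 := le_of_mul_le_mul_right a1 hQ
  have a4 : r / (4 * Λ * L) ≤ 1 / 2 := by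
    rw [div_le_div_iff₀ (by positivity) (by norm_num)]
    nlinarith [mul_le_mul hΛ hL zero_le_one (zero_le_one.trans hΛ)]
  have a5 : d ≤ r * Q / (2 * Λ) := by
    have e1 : r * Q / (2 * Λ) = 2 * (r * Q / (4 * Λ)) := by
      field_simp
      ring
    rw [e1]
    nlinarith [mul_le_mul_of_nonneg_right a4 hd]
  rw [le_div_iff₀ (by positivity)] at a5
  nlinarith [mul_pos hQ hr]

end INear

omit [CompactSpace Z] in
theorem Cst.nearP' (c : Cst S E) (h : c.CenP) : c.NearP := by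
  intro k
  have hC := D.one_le_C
  have hΛ := E.one_le_Λ
  have hL0 : 0 ≤ c.L := by nlinarith [c.L2, mul_nonneg (zero_le_one.trans hC) (zero_le_one.trans hΛ)]
  have hL : 1 ≤ c.L + 1 := by linarith
  have hr := D.qpow_pos k
  refine ⟨D.q ^ k / (4 * E.Λ * D.C * (c.L + 1) ^ 2), by positivity, ?_⟩
  intro l0 j ε α η s ξ p l x hP hj hξ hG hx
  obtain ⟨-, g2, g3⟩ := hG l
  have hlen := (c.mem_T.1 hξ).1
  have hQ := D.qpow_pos j
  have hQ0 : D.q ^ j ≤ D.q ^ l0 := pow_le_pow_of_le_one D.q_pos.le D.q_lt.le hj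
  have hQk : D.q ^ (j + k) ≤ D.q ^ j :=
    pow_le_pow_of_le_one D.q_pos.le D.q_lt.le (Nat.le_add_right j k)
  have hs : (c.L + 2) * D.q ^ j ≤ c.δ5 := by
    refine le_trans ?_ (hP.q2.trans hP.ε_le)
    exact mul_le_mul (by linarith) hQ0 hQ.le (by linarith)
  have hcen := h j α (α + 8 * η) s ξ (by nlinarith) hP.s_le hP.α_ge
    (by linarith [hP.η_pos]) hP.β_le hξ
  have hm := D.mob_ge ξ x (p l)
  rw [hlen] at hm
  have hq1 : D.q ^ j ≤ (c.L + 1) * D.q ^ j := le_mul_of_one_le_left hQ.le hL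
  have key : E.Λ * dist x (p l) < D.q ^ j * D.q ^ k :=
    INear.alg dist_nonneg hQ hC hL hΛ hr (D.qpow_le_one k) rfl dist_nonneg hx
      (hQ.le.trans (le_max_right _ _))
      (max_le (by linarith [dist_triangle x (p l) (D.pt ξ)])
        (by linarith [dist_nonneg (x := x) (y := p l)]))
      (hQ.le.trans (le_max_right _ _)) (max_le g2.le hq1) hm
  rw [← pow_add, dist_comm] at key
  have hb : ball (p l) (D.q ^ (j + k)) ⊆ S.Ro := by
    refine Subset.trans (fun y hy => ?_) hcen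
    rw [mem_ball] at hy ⊢
    linarith [dist_triangle y (p l) (D.pt ξ), c.δ5_pos]
  have hj' : JoinedIn (ball (p l) (D.q ^ (j + k))) (p l) x :=
    (E.llc (p l) x).mono (closedBall_subset_ball key)
  exact ⟨hb hj'.target_mem, g3 x (hj'.mono fun y hy => ⟨S.Ro_sub (hb hy), hy⟩)⟩

theorem Cst.nearP (c : Cst S E) (h : c.CenP) : c.NearP := c.nearP' h

end Vale.Agent.P198
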