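import Vale.Agent.P198.L.Stm

/-! Part I: statements. -/

open Set Metric Topology Filter

namespace Vale.Agent.P198

variable {G Z : Type*} [Group G] [MetricSpace Z] [MulAction G Z]

/-- The crossings of the unit square. -/
def Fam : Set (Set ℂ) := {A | Crs 0 1 A ∧ A ⊆ rect 0 1 0 1}

/-- Finitely many boxes catch all big sets. -/
def BoxP (Z : Type*) [MetricSpace Z] : Prop :=
  ∀ δ : ℝ, 0 < δ → ∃ T : Finset (ℂ → Z), (∀ ψ ∈ T, IsOpenEmbedding ψ) ∧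
    ∀ A ∈ Big Z δ, ∃ ψ ∈ T, ∃ A' ∈ Fam, ψ '' A' ⊆ A

/-- Record levels. -/
structure Rec (D : Dyn G Z) where
  ψ : ℂ → Z
  emb : IsOpenEmbedding ψ
  n : ℕ → ℕ
  M : ℕ → ℝ
  C1 : ℝ
  C1_pos : 0 < C1
  M_pos : ∀ k, 0 < M k
  n_lim : Tendsto n atTop atTop
  M_lim : Tendsto M atTop atTop
  test : ∀ k, D.TestAt (n k) (C1 * M k)
  low : ∀ k, M k ≤ D.Mod (n k) ((fun A => ψ '' A) '' Fam)

def RecP (D : Dyn G Z) : Prop := ¬ D.Tst → Nonempty (Rec D)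

/-- The limit of the optimal flows at record levels. -/
structure Lim (D : Dyn G Z) where
  ψ : ℂ → Z
  emb : IsOpenEmbedding ψ
  m : Set (Set ℂ) → ℝ
  TF : Set (Set Z) → Prop
  C2 : ℝ
  m_nonneg : ∀ E, 0 ≤ m E
  m_add : ∀ E E', Disjoint E E' → m (E ∪ E') = m E + m E'
  m_fam : m Fam = 1
  m_compl : m Famᶜ = 0
  tf_mono : ∀ Γ Γ' : Set (Set Z), (∀ A ∈ Γ', A.Nonempty) → Γ ⊆ Γ' → TF Γ → TF Γ'
  tf_smul : ∀ (g : G) (Γ : Set (Set Z)), (∀ A ∈ Γ, A.Nonempty) → TF Γ →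
    TF ((fun A => (fun x => g • x) '' A) '' Γ)
  tf_pos : ∀ E, E ⊆ Fam → 0 < m E → TF ((fun A => ψ '' A) '' E)
  cross : ∀ E Γ, TF Γ → (∀ A ∈ E, A ∈ Fam → ∀ B ∈ Γ, (ψ '' A ∩ B).Nonempty) → m E = 0
  series : ∀ (T : Finset (Z × ℝ)) (E : Set (Set ℂ)), (∀ p ∈ T, 0 < p.2) →
    (∀ p ∈ T, ∀ p' ∈ T, p ≠ p' → Disjoint (ann p.1 p.2) (ann p'.1 p'.2)) →
    (∀ A ∈ E, A ∈ Fam → ∀ p ∈ T, CrA (ψ '' A) p) → T.card * m E ^ 2 ≤ C2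

def LimP (D : Dyn G Z) : Prop := Nonempty (Rec D) → Nonempty (Lim D)

namespace Lim

variable {D : Dyn G Z} (L : Lim D)

theorem m_mono {E E' : Set (Set ℂ)} (h : E ⊆ E') : L.m E ≤ L.m E' := by
  have h1 := L.m_add E (E' \ E) disjoint_sdiff_right
  rw [union_sdiff_cancel h] at h1
  linarith [L.m_nonneg (E' \ E)]

theorem m_union (E E' : Set (Set ℂ)) : L.m (E ∪ E') ≤ L.m E + L.m E' := by
  have h1 := L.m_add E (E' \ E) disjoint_sdiff_right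
  rw [union_sdiff_self] at h1
  linarith [L.m_mono (sdiff_subset : E' \ E ⊆ E')]

theorem m_empty : L.m ∅ = 0 := by
  have h1 := L.m_add ∅ ∅ (disjoint_empty _)
  rw [empty_union] at h1
  linarith

theorem m_univ : L.m univ = 1 := by
  have h1 := L.m_add Fam Famᶜ disjoint_compl_right
  rw [union_compl_self, L.m_fam, L.m_compl] at h1
  linarith

theorem m_le_one (E : Set (Set ℂ)) : L.m E ≤ 1 := L.m_univ ▸ L.m_mono (subset_univ E)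

theorem m_inter (E : Set (Set ℂ)) : L.m (E ∩ Fam) = L.m E := by
  refine le_antisymm (L.m_mono inter_subset_left) ?_
  have h1 : L.m E ≤ L.m (E ∩ Fam ∪ Famᶜ) := L.m_mono fun A hA => by
    by_cases h : A ∈ Fam
    · exact Or.inl ⟨hA, h⟩
    · exact Or.inr h
  linarith [L.m_union (E ∩ Fam) Famᶜ, L.m_compl]

/-- Monotonicity only needs inclusion on `Fam`. -/
theorem m_mono' {E E' : Set (Set ℂ)} (h : ∀ A ∈ Fam, A ∈ E → A ∈ E') : L.m E ≤ L.m E' := by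
  rw [← L.m_inter E]
  exact L.m_mono fun A hA => h A hA.2 hA.1

/-- The height function. -/
noncomputable def v (w : ℂ) : ℝ := L.m {A | w ∈ Up 0 1 A}

/-- Few curves meet a small ball. -/
def SmallP : Prop :=
  ∀ κ : ℝ, 0 < κ → ∃ r : ℝ, 0 < r ∧ ∀ z : Z, L.m {A | (L.ψ '' A ∩ ball z r).Nonempty} ≤ κ

structure VP : Prop where
  osc : ∀ (P : Set ℂ) (x y : ℂ), P ⊆ strip 0 1 → JoinedIn P x y →
    |L.v x - L.v y| ≤ L.m {A | (A ∩ P).Nonempty}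
  small : ∀ κ : ℝ, 0 < κ → ∃ r : ℝ, 0 < r ∧ ∀ w ∈ rect 0 1 0 1,
    L.m {A | (A ∩ ball w r).Nonempty} ≤ κ
  cont : ContinuousOn L.v (rect 0 1 0 1)
  bot : ∀ w ∈ rect 0 1 0 1, w.im = 0 → L.v w = 0
  top : ∀ w ∈ rect 0 1 0 1, w.im = 1 → L.v w = 1

/-- Finite intersections. -/
def FinP : Prop :=
  ∀ (X Y : Finset ℂ) (α β : ℝ), 0 ≤ α → β ≤ 1 → (∀ x ∈ X, L.v x ≤ α) → (∀ y ∈ Y, β ≤ L.v y) →
    β - α ≤ L.m {A | (∀ x ∈ X, x ∉ Up 0 1 A) ∧ ∀ y ∈ Y, y ∈ Up 0 1 A}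

/-- Points joined approximately by thick families have the same height. -/
def ConstP : Prop :=
  ∀ x ∈ rect 0 1 0 1, ∀ y ∈ rect 0 1 0 1,
    (∀ ε : ℝ, 0 < ε → ∃ Γ, L.TF Γ ∧ ∀ B ∈ Γ, ∃ B' ⊆ strip 0 1, L.ψ '' B' ⊆ B ∧
      ∃ x' y', JoinedIn B' x' y' ∧ dist x' x < ε ∧ dist y' y < ε) → L.v x = L.v y

/-- Level lines. -/
structure Line (t : ℝ) (K : Set ℂ) : Prop where
  cpt : IsCompact K
  conn : IsPreconnected K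
  sub : K ⊆ rect 0 1 0 1
  left : ∃ x ∈ K, x.re = 0
  right : ∃ x ∈ K, x.re = 1
  pos : ∀ ε : ℝ, 0 < ε → 0 < L.m {A | (∀ x ∈ A, ∃ y ∈ K, dist x y < ε) ∧
    ∀ y ∈ K, ∃ x ∈ A, dist x y < ε}
  meet : ∀ (P : Set ℂ) (x y : ℂ), P ⊆ rect 0 1 0 1 → JoinedIn P x y → L.v x < t → t < L.v y →
    (K ∩ P).Nonempty

def LineP : Prop := ∀ t : ℝ, 0 < t → t < 1 → ∃ K, L.Line t K

def ValP : Prop := ∀ (t : ℝ) (K : Set ℂ), 0 < t → t < 1 → L.Line t K → ∀ x ∈ K, L.v x = t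

/-- Bottleneck. -/
def BottP : Prop :=
  ∀ R : ℝ, ∃ Cs : ℝ, 0 < Cs ∧ ∀ (j : ℕ) (α β : ℝ) (T : Finset G), 0 ≤ α → α < β → β ≤ 1 →
    (∀ g ∈ T, D.len g = j ∧ ∃ x y, JoinedIn (rect 0 1 0 1 ∩ L.ψ ⁻¹' ball (D.pt g) (R * D.q ^ j)) x y ∧
      L.v x ≤ α ∧ β ≤ L.v y) → T.card * (β - α) ^ 2 ≤ Cs

/-- Thick sets. -/
def Th (K : Set Z) : Prop :=
  ∀ ε : ℝ, 0 < ε → L.TF {B | IsPathConnected B ∧ (∀ x ∈ B, ∃ y ∈ K, dist x y < ε) ∧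
    ∀ y ∈ K, ∃ x ∈ B, dist x y < ε}

structure ThP : Prop where
  smul : ∀ (g : G) (K : Set Z), L.Th K → L.Th ((fun x => g • x) '' K)
  line : ∀ (t : ℝ) (K : Set ℂ), L.Line t K → L.Th (L.ψ '' K)
  const : ∀ K : Set Z, L.Th K → IsCompact K → K ⊆ L.ψ '' interior (rect 0 1 0 1) →
    ∀ x y : ℂ, L.ψ x ∈ K → L.ψ y ∈ K → L.v x = L.v y

end Lim

/-- A path in `B` from height at most `α` to height at least `β`. -/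
def Osc {Z : Type*} [MetricSpace Z] (v : Z → ℝ) (B : Set Z) (α β : ℝ) : Prop :=
  ∃ x y, JoinedIn B x y ∧ v x ≤ α ∧ β ≤ v y

/-- The structure that part I-B refutes. -/
structure Str (D : Dyn G Z) where
  R : Set Z
  Ro : Set Z
  Lf : Set Z
  Rt : Set Z
  v : Z → ℝ
  K : ℝ → Set Z
  Th : Set Z → Prop
  R_cpt : IsCompact R
  Ro_open : IsOpen Ro
  Ro_sub : Ro ⊆ R
  bd_conn : IsPathConnected (R \ Ro)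
  Lf_sub : Lf ⊆ R \ Ro
  Rt_sub : Rt ⊆ R \ Ro
  Lf_cpt : IsCompact Lf
  Rt_cpt : IsCompact Rt
  Lf_conn : IsPathConnected Lf
  disj : Disjoint Lf Rt
  v_cont : ContinuousOn v R
  bd : ∀ x ∈ R \ Ro, x ∈ Lf ∨ x ∈ Rt ∨ v x = 0 ∨ v x = 1
  th_smul : ∀ (g : G) (S : Set Z), Th S → Th ((fun x => g • x) '' S)
  th_const : ∀ S : Set Z, Th S → IsCompact S → S ⊆ Ro → ∀ x ∈ S, ∀ y ∈ S, v x = v y
  K_th : ∀ t, 0 < t → t < 1 → Th (K t)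
  K_cpt : ∀ t, 0 < t → t < 1 → IsCompact (K t)
  K_conn : ∀ t, 0 < t → t < 1 → IsPreconnected (K t)
  K_sub : ∀ t, 0 < t → t < 1 → K t ⊆ R
  K_left : ∀ t, 0 < t → t < 1 → (K t ∩ Lf).Nonempty
  K_right : ∀ t, 0 < t → t < 1 → (K t ∩ Rt).Nonempty
  K_val : ∀ t, 0 < t → t < 1 → ∀ x ∈ K t, v x = t
  K_meet : ∀ t, 0 < t → t < 1 → ∀ (P : Set Z) (x y : Z), P ⊆ R → JoinedIn P x y → v x < t →
    t < v y → (K t ∩ P).Nonempty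
  bott : ∀ L : ℝ, ∃ Cs : ℝ, 0 < Cs ∧ ∀ (j : ℕ) (α β : ℝ) (T : Finset G), 0 ≤ α → α < β → β ≤ 1 →
    (∀ g ∈ T, D.len g = j ∧ Osc v (R ∩ ball (D.pt g) (L * D.q ^ j)) α β) →
    T.card * (β - α) ^ 2 ≤ Cs

/-- Plane facts about the unit square. -/
structure RectP : Prop where
  cpt : IsCompact (rect 0 1 0 1)
  conv : Convex ℝ (rect 0 1 0 1)
  int : ∀ w : ℂ, w ∈ interior (rect 0 1 0 1) ↔ 0 < w.re ∧ w.re < 1 ∧ 0 < w.im ∧ w.im < 1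
  bd : IsPathConnected (rect 0 1 0 1 \ interior (rect 0 1 0 1))
  left : IsCompact (rect 0 0 0 1) ∧ IsPathConnected (rect 0 0 0 1)
  right : IsCompact (rect 1 1 0 1)
  fam : Fam.Nonempty

def StrP (D : Dyn G Z) : Prop :=
  ∀ L : Lim D, L.VP → L.LineP → L.ValP → L.BottP → L.ThP → Nonempty (Str D)

/-- Constants of part I-B. -/
structure Cst {D : Dyn G Z} (S : Str D) (E : Geo Z) where
  δ : ℝ
  δ5 : ℝ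
  L : ℝ
  δ_pos : 0 < δ
  δ5_pos : 0 < δ5
  δ5_le : 12 * δ5 ≤ δ
  rt : ∀ x ∈ S.Rt, δ ≤ infDist x S.Lf
  cen : ∀ x ∈ S.R, 1 / 4 ≤ S.v x → S.v x ≤ 3 / 4 → δ / 12 ≤ infDist x S.Lf →
    infDist x S.Lf ≤ 11 * δ / 12 → ball x (3 * δ5) ⊆ S.Ro
  L1 : D.C < L * δ5
  L2 : 2 * D.C * E.Λ + 1 ≤ L

def CstP {D : Dyn G Z} (S : Str D) (E : Geo Z) : Prop := Nonempty (Cst S E)

namespace Cst

variable {D : Dyn G Z} {S : Str D} {E : Geo Z} (c : Cst S E)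

open Classical in
/-- The oscillating nodes. -/
noncomputable def T (j : ℕ) (α β s : ℝ) : Finset G :=
  (D.lev j).filter fun g => c.δ / 3 - s ≤ infDist (D.pt g) S.Lf ∧
    infDist (D.pt g) S.Lf ≤ 2 * c.δ / 3 + s ∧
    Osc S.v (S.R ∩ ball (D.pt g) (c.L * D.q ^ j)) α β

theorem mem_T {j : ℕ} {α β s : ℝ} {g : G} : g ∈ c.T j α β s ↔ D.len g = j ∧
    c.δ / 3 - s ≤ infDist (D.pt g) S.Lf ∧ infDist (D.pt g) S.Lf ≤ 2 * c.δ / 3 + s ∧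
    Osc S.v (S.R ∩ ball (D.pt g) (c.L * D.q ^ j)) α β := by
  classical
  simp [T, D.mem_lev]

/-- Oscillating nodes are central. -/
def CenP : Prop :=
  ∀ (j : ℕ) (α β s : ℝ) (g : G), c.L * D.q ^ j ≤ c.δ5 → s ≤ c.δ / 6 → 1 / 4 ≤ α → α ≤ β →
    β ≤ 3 / 4 → g ∈ c.T j α β s → ball (D.pt g) (2 * c.δ5) ⊆ S.Ro

def InitP : Prop :=
  ∃ c0 : ℝ, 0 < c0 ∧ ∃ j0 : ℕ, ∀ j, j0 ≤ j → ∃ α : ℝ, 1 / 4 ≤ α ∧
    α + 1 / (12 * D.A ^ (j + 1)) ≤ 3 / 4 ∧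
    c0 ≤ D.q ^ j * (c.T j α (α + 1 / (12 * D.A ^ (j + 1))) 0).card

/-- The three heights. -/
noncomputable def ht (α η : ℝ) (l : Fin 3) : ℝ := α + (1 + 3 * (l : ℕ)) * η

/-- Points on the three lines near which the height oscillates little. -/
def Good (k j : ℕ) (α η : ℝ) (ξ : G) (p : Fin 3 → Z) : Prop :=
  ∀ l, p l ∈ S.K (ht α η l) ∧ dist (p l) (D.pt ξ) < (c.L + 1) * D.q ^ j ∧
    ∀ y, JoinedIn (S.R ∩ ball (p l) (D.q ^ (j + k))) (p l) y → |S.v y - ht α η l| < η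

/-- The standing smallness assumptions of a step. -/
structure Par (l0 : ℕ) (ε α η s : ℝ) : Prop where
  ε_pos : 0 < ε
  ε_le : ε ≤ c.δ5
  q1 : D.C * D.q ^ l0 ≤ ε ^ 2
  q2 : (c.L + 2 + 2 * D.C) * D.q ^ l0 ≤ ε
  s_nonneg : 0 ≤ s
  s_le : s ≤ c.δ / 6
  η_pos : 0 < η
  α_ge : 1 / 4 ≤ α
  β_le : α + 8 * η ≤ 3 / 4

def BadP : Prop :=
  ∃ c1 : ℝ, 0 < c1 ∧ ∀ (k l0 j : ℕ) (ε α η s : ℝ) (Y : Finset G), c.Par l0 ε α η s → l0 ≤ j →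
    Y ⊆ c.T j α (α + 8 * η) s → (∀ ξ ∈ Y, ¬ ∃ p, c.Good k j α η ξ p) →
    c1 * Y.card ≤ D.q ^ k * ∑ r ∈ Finset.range 8,
      ((c.T (j + k) (α + r * η) (α + r * η + η) (s + ε)).card : ℝ)

/-- The images of the marked points have nearly the right height. -/
def NearP : Prop :=
  ∀ k : ℕ, ∃ ε' : ℝ, 0 < ε' ∧ ∀ (l0 j : ℕ) (ε α η s : ℝ) (ξ : G) (p : Fin 3 → Z) (l : Fin 3) (x : Z),
    c.Par l0 ε α η s → l0 ≤ j → ξ ∈ c.T j α (α + 8 * η) s → c.Good k j α η ξ p →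
    dist (ξ⁻¹ • x) (ξ⁻¹ • p l) < ε' → x ∈ S.Ro ∧ |S.v x - ht α η l| < η

def PairP : Prop :=
  ∀ (l0 j : ℕ) (ε α η s : ℝ) (ξ ξ' : G) (p' : Fin 3 → Z), c.Par l0 ε α η s → l0 ≤ j →
    ξ ∈ c.T j α (α + 8 * η) s → ξ' ∈ c.T j α (α + 8 * η) s → (∀ l, p' l ∈ S.K (ht α η l)) →
    (∀ l, (ξ * ξ'⁻¹) • p' l ∈ S.Ro ∧ |S.v ((ξ * ξ'⁻¹) • p' l) - ht α η l| < η) →
    l0 ≤ D.len (ξ * ξ'⁻¹) → ∃ r ∈ Finset.range 8,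
      ξ * ξ'⁻¹ ∈ c.T (D.len (ξ * ξ'⁻¹)) (α + r * η) (α + r * η + η) (s + ε) ∨
      (ξ * ξ'⁻¹)⁻¹ ∈ c.T (D.len (ξ * ξ'⁻¹)) (α + r * η) (α + r * η + η) (s + ε)

def StepP : Prop :=
  ∃ Ca : ℝ, 0 < Ca ∧ ∀ k : ℕ, ∃ Cb : ℝ, 0 < Cb ∧ ∀ (l0 j : ℕ) (ε α η s Ψ : ℝ),
    c.Par l0 ε α η s → l0 ≤ j → 0 ≤ Ψ →
    (∀ r ∈ Finset.range 8, ∀ i, l0 ≤ i →
      √D.q ^ i * ((c.T i (α + r * η) (α + r * η + η) (s + ε)).card : ℝ) ≤ Ψ) →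
    √D.q ^ j * ((c.T j α (α + 8 * η) s).card : ℝ) ≤ Ca * √D.q ^ k * Ψ ∨
      (√D.q ^ j * ((c.T j α (α + 8 * η) s).card : ℝ)) ^ 2 ≤
        Cb * (2 * j + 1) * (Ψ + D.A ^ (l0 + 1))

end Cst

open Classical in
/-- Multiplicative energy. -/
def EnP (D : Dyn G Z) : Prop :=
  ∃ N : ℕ, ∀ (j : ℕ) (Y S : Finset G), (∀ ξ ∈ Y, D.len ξ = j) →
    (∀ ξ ∈ Y, ∀ ξ' ∈ Y, ξ * ξ'⁻¹ ∈ S) → (Y.card : ℝ) ^ 2 ≤ N * (2 * j + 1) * S.card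

/-- Pigeonhole for triples of points. -/
def NetP (G Z : Type*) [MetricSpace Z] : Prop :=
  ∀ ε : ℝ, 0 < ε → ∃ F : ℕ, ∀ (Y : Finset G) (p : G → Fin 3 → Z), ∃ Y' ⊆ Y,
    Y.card ≤ F * Y'.card ∧ ∀ ξ ∈ Y', ∀ ξ' ∈ Y', ∀ l, dist (p ξ l) (p ξ' l) < ε

/-- The abstract chain argument. -/
def ChainP : Prop :=
  ∀ (P l0 j0 : ℕ) (θ U W Cb Φ0 x0 : ℝ) (n : ℕ → ℝ → ℕ → ℝ) (ch : ℕ → ℝ → ℕ → ℝ)
    (V : ℕ → ℝ → Prop), 0 < θ → θ < 1 → U < 2 ^ P → 1 ≤ Φ0 → V 0 x0 → l0 ≤ j0 →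
    Φ0 ≤ θ ^ j0 * n 0 x0 j0 → (∀ i x j, 0 ≤ n i x j) → (∀ i x j, V i x → n i x j ≤ U * 64 ^ i) →
    (∀ i x, V i x → ∀ r ∈ Finset.range 8, V (i + 1) (ch i x r)) →
    (∀ i < P, ∀ x j Ψ, V i x → l0 ≤ j → 0 ≤ Ψ →
      (∀ r ∈ Finset.range 8, ∀ j', l0 ≤ j' → θ ^ j' * n (i + 1) (ch i x r) j' ≤ Ψ) →
      θ ^ j * n i x j ≤ Ψ / 256 ∨ (θ ^ j * n i x j) ^ 2 ≤ Cb * (2 * j + 1) * (Ψ + W)) →
    ∃ (j : ℕ) (Φ : ℝ), Φ0 ≤ Φ ∧ Φ ≤ θ ^ j * 128 ^ P ∧ Φ ^ 2 ≤ Cb * (2 * j + 1) * (128 * Φ + W)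

/-- The choice of parameters. -/
def NumP : Prop :=
  ∀ (θ A c0 Cs Cb C' δ' : ℝ) (j0 : ℕ), 0 < θ → θ < 1 → 2 ≤ A → 0 < c0 → 0 < Cs → 0 < Cb → 0 < C' →
    0 < δ' → ∃ (l0 j1 P : ℕ) (ε : ℝ), j0 ≤ j1 ∧ l0 ≤ j1 ∧ 0 < ε ∧ ε ≤ δ' ∧ P * ε ≤ δ' ∧
      C' * (θ ^ 2) ^ l0 ≤ ε ^ 2 ∧ C' * (θ ^ 2) ^ l0 ≤ ε ∧ Cs * (12 * A ^ (j1 + 1)) ^ 2 < 2 ^ P ∧
      A ^ (l0 + 1) ≤ c0 / θ ^ j1 ∧
      ∀ j : ℕ, 1 ≤ θ ^ j * 128 ^ P → 129 * Cb * (2 * j + 1) < c0 / θ ^ j1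

def FinalP {D : Dyn G Z} {S : Str D} {E : Geo Z} (c : Cst S E) : Prop :=
  ChainP → NumP → c.InitP → c.StepP → False

end Vale.Agent.P198
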